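import Crest.Agent.R246.G2.Patch

/-! Row 246, block G2: the weighted area inequality for maps `C × ℝ → E`. -/

set_option autoImplicit false
set_option linter.unusedSectionVars false

open Set Module Filter Topology Metric MeasureTheory
open scoped RealInnerProductSpace ContDiff ENNReal

noncomputable section

namespace Crest.Agent.R246.G2

variable {E : Type} [NormedAddCommGroup E] [InnerProductSpace ℝ E] [FiniteDimensional ℝ E]
  [MeasurableSpace E] [BorelSpace E] {C : Set E} {ψ : E → ℝ}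

theorem meas_rel {X Z : Type*} [TopologicalSpace X] [MeasurableSpace X] [BorelSpace X]
    [TopologicalSpace Z] [MeasurableSpace Z] [BorelSpace Z] {f : X → Z} {Ω : Set X} {T : Set Z}
    (hΩ : MeasurableSet Ω) (hf : ContinuousOn f Ω) (hT : MeasurableSet T) :
    MeasurableSet (Ω ∩ f ⁻¹' T) := by
  have h1 : MeasurableSet ((fun z : Ω => f z) ⁻¹' T) := hf.domRestrict.measurable hT
  convert hΩ.subtype_image h1 using 1
  ext z
  simp only [mem_inter_iff, mem_preimage, mem_image, Subtype.exists, exists_and_right,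
    exists_eq_right, exists_prop]

/-- weighted area inequality, no injectivity -/
theorem lintegral_image_le {F : E → E} {F' : E → E →L[ℝ] E} {S : Set E} (hS : MeasurableSet S)
    (hF : ∀ z ∈ S, HasFDerivWithinAt F (F' z) S z) {φ : E → ℝ≥0∞} (hφ : Measurable φ) :
    ∫⁻ y in F '' S, φ y ≤ ∫⁻ z in S, φ (F z) * ENNReal.ofReal |(F' z).det| := by
  have hc : ContinuousOn F S := fun z hz => (hF z hz).continuousWithinAt
  have hm : AEMeasurable F (volume.restrict S) := hc.aemeasurable hS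
  have hj : AEMeasurable (fun z => ENNReal.ofReal |(F' z).det|) (volume.restrict S) :=
    aemeasurable_ofReal_abs_det_fderivWithin volume hS hF
  set ν := (volume.restrict S).withDensity fun z => ENNReal.ofReal |(F' z).det| with hν
  have hm' : AEMeasurable F ν := hm.mono_ac (withDensity_absolutelyContinuous _ _)
  have hle : volume.restrict (F '' S) ≤ ν.map F := by
    refine Measure.le_iff.2 fun T hT => ?_
    have hST : MeasurableSet (S ∩ F ⁻¹' T) := meas_rel hS hc hT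
    rw [Measure.restrict_apply hT, Measure.map_apply_of_aemeasurable hm' hT, inter_comm,
      ← image_inter_preimage]
    refine (addHaar_image_le_lintegral_abs_det_fderiv volume hST fun z hz =>
      (hF z hz.1).mono inter_subset_left).trans ?_
    refine le_trans ?_ (measure_mono (inter_subset_right : S ∩ F ⁻¹' T ⊆ _))
    rw [hν, withDensity_apply _ hST, Measure.restrict_restrict hST,
      inter_eq_left.2 inter_subset_left]
  refine (lintegral_mono' hle le_rfl).trans (le_of_eq ?_)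
  rw [lintegral_map' hφ.aemeasurable hm', hν]
  exact (lintegral_withDensity_eq_lintegral_mul₀ hj (hφ.comp_aemeasurable hm)).trans
    (lintegral_congr fun z => mul_comm _ _)

theorem lintegral_le_split {e : E} (he : ‖e‖ = 1) (f : E → ℝ≥0∞) :
    ∫⁻ z, f z ≤ ∫⁻ s : ℝ, ∫⁻ x : (ℝ ∙ e)ᗮ, f (s • e + (x : E)) := by
  let j : (ℝ × (ℝ ∙ e)ᗮ) ≃ᵐ E := (MeasurableEquiv.toLp 2 _).trans (spl he).toMeasurableEquiv
  have hj : MeasurePreserving j :=
    (spl he).measurePreserving.comp (WithLp.volume_preserving_toLp ℝ (ℝ ∙ e)ᗮ)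
  rw [← hj.lintegral_comp_emb j.measurableEmbedding]
  refine (lintegral_prod_le _).trans (le_of_eq ?_)
  refine lintegral_congr fun s => lintegral_congr fun x => congrArg f ?_
  exact spl_apply he s x

theorem tsum_lintegral_le {α : Type*} [MeasurableSpace α] (μ : Measure α) {ι : Type*}
    (f : ι → α → ℝ≥0∞) : ∑' i, ∫⁻ a, f i a ∂μ ≤ ∫⁻ a, ∑' i, f i a ∂μ := by
  classical
  rw [ENNReal.tsum_eq_iSup_sum]
  refine iSup_le fun s => ?_
  have : ∑ i ∈ s, ∫⁻ a, f i a ∂μ ≤ ∫⁻ a, ∑ i ∈ s, f i a ∂μ := by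
    induction s using Finset.induction_on with
    | empty => simp
    | insert i s hi ih =>
      simp only [Finset.sum_insert hi]
      exact (add_le_add le_rfl ih).trans (le_lintegral_add _ _)
  exact this.trans (lintegral_mono fun a => ENNReal.sum_le_tsum s)

/-- the derivative of `Y` on `T_y C × ℝ ≅ E` -/
def tanD (Y : E × ℝ → E) (ψ : E → ℝ) (z : E × ℝ) : E →L[ℝ] E :=
  fderiv ℝ Y z ∘L (prj (gradient ψ z.1)).prod (innerSL ℝ (gradient ψ z.1))

theorem area_patch (hA : StArea E) {d : ℕ} (hd : finrank ℝ E = d + 1) (h : SMC C ψ) {e : E}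
    (he : ‖e‖ = 1) {G : (ℝ ∙ e)ᗮ → E} {O : Set (ℝ ∙ e)ᗮ} {W W' : Set E} (hO : IsOpen O)
    (hW0 : (0 : E) ∉ W) (hG : ContDiffOn ℝ 1 G O) (hinj : InjOn G O)
    (hD : ∀ x ∈ O, Function.Injective (fderiv ℝ G x)) (him : G '' O = C ∩ W)
    (hT : ∀ x ∈ O, ∀ v, ⟪gradient ψ (G x), fderiv ℝ G x v⟫ = 0) (hW' : MeasurableSet W')
    (hsub : W' ⊆ W) {Y : E × ℝ → E} {A : Set (E × ℝ)} (hAm : MeasurableSet A)
    (hAC : ∀ z ∈ A, z.1 ∈ C) (hY : ∀ z ∈ A, DifferentiableAt ℝ Y z) {φ : E → ℝ≥0∞}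
    (hφ : Measurable φ) {J : ℝ → E → ℝ≥0∞} (hJ : ∀ s, Measurable (J s))
    (hle : ∀ z ∈ A, φ (Y z) * ENNReal.ofReal |(tanD Y ψ z).det| ≤ J z.2 z.1) :
    ∫⁻ y in Y '' (A ∩ Prod.fst ⁻¹' W'), φ y ≤ ∫⁻ s, ∫⁻ y in C ∩ W', J s y ∂(μHE[d] : Measure E) := by
  set S : Set (ℝ ∙ e)ᗮ := O ∩ G ⁻¹' W' with hS
  have hSm : MeasurableSet S := meas_rel hO.measurableSet hG.continuousOn hW'
  have hGS : G '' S = C ∩ W' := by
    rw [hS, image_inter_preimage, him, inter_assoc, inter_eq_right.2 hsub]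
  let K : E → E × ℝ := fun z => (G (pe e z), ⟪e, z⟫)
  let Ω : Set E := pe e ⁻¹' S
  have hΩm : MeasurableSet Ω := (pe e).continuous.measurable hSm
  have hGd : ∀ x ∈ O, DifferentiableAt ℝ G x := fun x hx =>
    (hG.contDiffAt (hO.mem_nhds hx)).differentiableAt one_ne_zero
  have hK : ∀ z ∈ Ω, HasFDerivAt K ((fderiv ℝ G (pe e z) ∘L pe e).prod (innerSL ℝ e)) z :=
    fun z hz => ((hGd _ hz.1).hasFDerivAt.comp z (pe e).hasFDerivAt).prodMk (innerSL ℝ e).hasFDerivAt
  have hBm : MeasurableSet (Ω ∩ K ⁻¹' A) :=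
    meas_rel hΩm (fun z hz => (hK z hz).continuousAt.continuousWithinAt) hAm
  have hsub' : Y '' (A ∩ Prod.fst ⁻¹' W') ⊆ (Y ∘ K) '' (Ω ∩ K ⁻¹' A) := by
    rintro _ ⟨⟨y, s⟩, ⟨hz, hy⟩, rfl⟩
    obtain ⟨x, hx, hxy⟩ : y ∈ G '' S := hGS ▸ ⟨hAC _ hz, hy⟩
    have hKz : K (s • e + (x : E)) = (y, s) := by
      simp only [K, pe_smul_add, inner_smul_add he, hxy]
    refine ⟨s • e + (x : E), ⟨?_, ?_⟩, by rw [Function.comp_apply, hKz]⟩
    · simpa only [Ω, mem_preimage, pe_smul_add] using hx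
    · rwa [mem_preimage, hKz]
  refine (lintegral_mono_set hsub').trans ?_
  refine (lintegral_image_le hBm (fun z hz =>
    ((hY _ hz.2).hasFDerivAt.comp z (hK z hz.1)).hasFDerivWithinAt) hφ).trans ?_
  let g : E → ℝ≥0∞ := Ω.indicator fun z => J ⟪e, z⟫ (G (pe e z)) *
    ENNReal.ofReal (LinearMap.normDet (fderiv ℝ G (pe e z) : (ℝ ∙ e)ᗮ →ₗ[ℝ] E))
  have hg : ∫⁻ z in Ω ∩ K ⁻¹' A, φ ((Y ∘ K) z) * ENNReal.ofReal
      |(fderiv ℝ Y (K z) ∘L (fderiv ℝ G (pe e z) ∘L pe e).prod (innerSL ℝ e)).det| ≤ ∫⁻ z, g z := by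
    refine le_trans (setLIntegral_mono' hBm fun z hz => ?_) (setLIntegral_le_lintegral _ g)
    have hm : G (pe e z) ∈ C ∩ W := him ▸ mem_image_of_mem G hz.1.1
    have hν : ‖gradient ψ (G (pe e z))‖ = 1 := smc_norm h hm.1 fun h => hW0 (h ▸ hm.2)
    have hfac : fderiv ℝ Y (K z) ∘L (fderiv ℝ G (pe e z) ∘L pe e).prod (innerSL ℝ e)
        = tanD Y ψ (K z) ∘L (fderiv ℝ G (pe e z) ∘L pe e + rk (gradient ψ (G (pe e z))) e) := by
      ext w
      have h1 := hT _ hz.1.1 (pe e w)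
      simp only [tanD, K, ContinuousLinearMap.comp_apply, ContinuousLinearMap.prod_apply, add_apply,
        rk_apply, prj_apply, innerSL_apply_apply, inner_add_right, inner_smul_right, h1,
        real_inner_self_eq_norm_sq, hν]
      simp
    rw [hfac, det_comp, abs_mul, abs_det_patch he hν _ (hT _ hz.1.1),
      ENNReal.ofReal_mul (abs_nonneg _), ← mul_assoc]
    simp only [g, indicator_of_mem hz.1]
    exact mul_le_mul_left (hle _ hz.2) _
  refine hg.trans ((lintegral_le_split he g).trans (lintegral_mono fun s => le_of_eq ?_))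
  have h1 := (hA _ G O hO hG hinj hD S inter_subset_left hSm).2 (J s) (hJ s)
  rw [finrank_perp hd he, hGS] at h1
  rw [h1, ← lintegral_indicator hSm]
  refine lintegral_congr fun x => ?_
  by_cases hx : x ∈ S
  · have : s • e + (x : E) ∈ Ω := by simpa only [Ω, mem_preimage, pe_smul_add] using hx
    simp only [g, indicator_of_mem this, indicator_of_mem hx, pe_smul_add, inner_smul_add he]
  · have : s • e + (x : E) ∉ Ω := by simpa only [Ω, mem_preimage, pe_smul_add] using hx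
    simp only [g, indicator_of_notMem this, indicator_of_notMem hx]

/-- the area inequality along the cone -/
theorem area_ineq (hA : StArea E) {d : ℕ} (hd : finrank ℝ E = d + 1) (h : SMC C ψ)
    {Y : E × ℝ → E} {A : Set (E × ℝ)} (hAm : MeasurableSet A)
    (hAC : ∀ z ∈ A, z.1 ∈ C ∧ z.1 ≠ 0) (hY : ∀ z ∈ A, DifferentiableAt ℝ Y z) {φ : E → ℝ≥0∞}
    (hφ : Measurable φ) {J : ℝ → E → ℝ≥0∞} (hJ : ∀ s, Measurable (J s))
    (hle : ∀ z ∈ A, φ (Y z) * ENNReal.ofReal |(tanD Y ψ z).det| ≤ J z.2 z.1) :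
    ∫⁻ y in Y '' A, φ y ≤ ∫⁻ s, ∫⁻ y, J s y ∂ar d C := by
  choose G O W hO hW hyW hW0 hG hinj hD him hT _hx using
    fun y : (C \ {0} : Set E) => exists_patch h y.2.1 y.2.2
  obtain ⟨I, hI, hIU⟩ := TopologicalSpace.isOpen_iUnion_countable W hW
  have : Countable I := hI.to_subtype
  have : Encodable I := Encodable.ofCountable I
  let V : ℕ → Set E := fun n => ⋃ i ∈ Encodable.decode₂ I n, W i
  have hVm : ∀ n, MeasurableSet (V n) := fun n =>
    (isOpen_iUnion fun i : I => isOpen_iUnion fun _ => hW i).measurableSet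
  have hcov : Y '' A ⊆ ⋃ n, Y '' (A ∩ Prod.fst ⁻¹' disjointed V n) := by
    rintro _ ⟨z, hz, rfl⟩
    have h1 : z.1 ∈ ⋃ i, W i := mem_iUnion.2 ⟨⟨z.1, hAC z hz⟩, hyW _⟩
    rw [← hIU, biUnion_eq_iUnion, ← Encodable.iUnion_decode₂, ← iUnion_disjointed] at h1
    obtain ⟨n, hn⟩ := mem_iUnion.1 h1
    exact mem_iUnion.2 ⟨n, z, ⟨hz, hn⟩, rfl⟩
  have hDm : ∀ n, MeasurableSet (disjointed V n) := MeasurableSet.disjointed hVm
  have hn : ∀ n, ∫⁻ y in Y '' (A ∩ Prod.fst ⁻¹' disjointed V n), φ y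
      ≤ ∫⁻ s, ∫⁻ y in C ∩ disjointed V n, J s y ∂(μHE[d] : Measure E) := by
    intro n
    rcases hdec : Encodable.decode₂ I n with _ | i
    · have : disjointed V n = ∅ := subset_empty_iff.1 ((disjointed_subset V n).trans
        (by simp [V, hdec]))
      simp [this]
    · exact area_patch hA hd h (smc_norm h i.1.2.1 i.1.2.2) (hO i) (hW0 i) (hG i) (hinj i) (hD i)
        (him i) (hT i) (hDm n) ((disjointed_subset V n).trans (iUnion₂_subset fun j hj => by
          rw [hdec, Option.mem_def, Option.some_inj] at hj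
          rw [hj])) hAm
        (fun z hz => (hAC z hz).1) hY hφ hJ hle
  refine (lintegral_mono_set hcov).trans ((lintegral_iUnion_le _ _).trans ?_)
  refine (ENNReal.tsum_le_tsum hn).trans ((tsum_lintegral_le _ _).trans (lintegral_mono fun s => ?_))
  rw [← lintegral_iUnion (fun n => h.closed.measurableSet.inter (hDm n))
    (fun i j hij => (disjoint_disjointed V hij).mono inter_subset_right inter_subset_right)]
  exact lintegral_mono_set (iUnion_subset fun n => inter_subset_left)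

end Crest.Agent.R246.G2
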