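import Crest.Agent.R246.G2.Lin

/-! Row 246, block G2: Lorentz boosts of the graph of a `1`-Lipschitz `1`-homogeneous function. -/

set_option autoImplicit false
set_option linter.unusedSectionVars false

open Set Module Filter Topology Metric
open scoped RealInnerProductSpace Real

noncomputable section

namespace Crest.Agent.R246.G2

variable {E : Type} [NormedAddCommGroup E] [InnerProductSpace ℝ E] [FiniteDimensional ℝ E]

def gam (b : E) : ℝ := (√(1 - ‖b‖ ^ 2))⁻¹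

/-- time component of the boost -/
def Bc (b : E) : E × ℝ →L[ℝ] ℝ :=
  gam b • (ContinuousLinearMap.snd ℝ E ℝ - innerSL ℝ b ∘L ContinuousLinearMap.fst ℝ E ℝ)

/-- space component of the boost -/
def Bs (b : E) : E × ℝ →L[ℝ] E :=
  ContinuousLinearMap.fst ℝ E ℝ +
    ((gam b ^ 2 / (gam b + 1)) • innerSL ℝ b ∘L ContinuousLinearMap.fst ℝ E ℝ
      - gam b • ContinuousLinearMap.snd ℝ E ℝ).smulRight b

theorem Bc_apply (b y : E) (c : ℝ) : Bc b (y, c) = gam b * (c - ⟪b, y⟫) := by simp [Bc]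

theorem Bs_apply (b y : E) (c : ℝ) :
    Bs b (y, c) = y + (gam b ^ 2 / (gam b + 1) * ⟪b, y⟫ - gam b * c) • b := by simp [Bs]

@[simp] theorem gam_neg (b : E) : gam (-b) = gam b := by simp [gam]

variable {b : E}

theorem one_sub_pos (hb : ‖b‖ < 1) : 0 < 1 - ‖b‖ ^ 2 := by nlinarith [norm_nonneg b]

theorem gam_pos (hb : ‖b‖ < 1) : 0 < gam b := inv_pos.2 (Real.sqrt_pos.2 (one_sub_pos hb))

theorem gam_mul_sqrt (hb : ‖b‖ < 1) : gam b * √(1 - ‖b‖ ^ 2) = 1 :=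
  inv_mul_cancel₀ (Real.sqrt_pos.2 (one_sub_pos hb)).ne'

theorem gam_sq (hb : ‖b‖ < 1) : gam b ^ 2 * ‖b‖ ^ 2 = gam b ^ 2 - 1 := by
  have h1 := gam_mul_sqrt hb
  have h2 := Real.sq_sqrt (one_sub_pos hb).le
  have h3 : gam b ^ 2 * (1 - ‖b‖ ^ 2) = 1 := by rw [← h2, ← mul_pow, h1, one_pow]
  linarith

theorem boost_inv (hb : ‖b‖ < 1) (z : E × ℝ) : ‖Bs b z‖ ^ 2 - Bc b z ^ 2 = ‖z.1‖ ^ 2 - z.2 ^ 2 := by
  obtain ⟨y, c⟩ := z
  have h1 := gam_pos hb
  have h2 := gam_sq hb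
  rw [Bs_apply, Bc_apply, norm_add_sq_real, inner_smul_right, norm_smul, mul_pow, Real.norm_eq_abs,
    sq_abs, real_inner_comm b y]
  have h3 : ‖b‖ ^ 2 = (gam b ^ 2 - 1) / gam b ^ 2 := by field_simp; linarith
  rw [h3]
  field_simp
  ring

theorem boost_neg (hb : ‖b‖ < 1) (y : E) (c : ℝ) :
    Bs b (Bs (-b) (y, c), Bc (-b) (y, c)) = y ∧ Bc b (Bs (-b) (y, c), Bc (-b) (y, c)) = c := by
  have h1 := gam_pos hb
  have h2 := gam_sq hb
  have h3 : ⟪b, b⟫ = (gam b ^ 2 - 1) / gam b ^ 2 := by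
    rw [real_inner_self_eq_norm_sq]; field_simp; linarith
  simp only [Bs_apply, Bc_apply, gam_neg, inner_add_right, inner_smul_right, inner_neg_left,
    inner_neg_right, h3]
  constructor
  · rw [smul_neg, ← neg_smul, add_assoc, ← add_smul]
    convert add_zero y
    convert zero_smul ℝ b
    field_simp
    ring
  · field_simp
    ring

/-- `1`-Lipschitz, `1`-homogeneous, strictly inside the light cone -/
structure Cn (f : E → ℝ) (κ : ℝ) : Prop where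
  lip : ∀ y y', |f y - f y'| ≤ ‖y - y'‖
  homog : ∀ t : ℝ, 0 < t → ∀ y, f (t • y) = t * f y
  bound : ∀ y, |f y| ≤ κ * ‖y‖
  k0 : 0 ≤ κ
  k1 : κ < 1

def Hf (f : E → ℝ) (b y : E) (c : ℝ) : ℝ := Bc (-b) (y, c) - f (Bs (-b) (y, c))

/-- the boosted graph -/
def ub (f : E → ℝ) (b y : E) : ℝ := Classical.epsilon fun c => Hf f b y c = 0

/-- the boosted family -/
def Db (f : E → ℝ) (b y : E) : ℝ := Real.arcsin (ub f b (‖y‖⁻¹ • y))

variable {f : E → ℝ} {κ : ℝ}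

theorem Cn.continuous (h : Cn f κ) : Continuous f :=
  (LipschitzWith.of_dist_le_mul (K := 1) fun y y' => by
    simpa [Real.dist_eq, dist_eq_norm] using h.lip y y').continuous

theorem Hf_mono (h : Cn f κ) (hb : ‖b‖ < 1) (y : E) {c c' : ℝ} (hc : c ≤ c') :
    gam b * (1 - ‖b‖) * (c' - c) ≤ Hf f b y c' - Hf f b y c := by
  have h1 := gam_pos hb
  have h2 := (abs_le.1 (h.lip (Bs (-b) (y, c')) (Bs (-b) (y, c)))).2
  have h3 : Bs (-b) (y, c') - Bs (-b) (y, c) = (gam b * (c' - c)) • b := by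
    simp only [Bs_apply, gam_neg]
    module
  rw [h3, norm_smul, Real.norm_of_nonneg (mul_nonneg h1.le (sub_nonneg.2 hc))] at h2
  simp only [Hf, Bc_apply, gam_neg]
  linarith

theorem Hf_abs (h : Cn f κ) (hb : ‖b‖ < 1) (y : E) (c c' : ℝ) :
    gam b * (1 - ‖b‖) * |c' - c| ≤ |Hf f b y c' - Hf f b y c| := by
  rcases le_total c c' with hc | hc
  · rw [abs_of_nonneg (sub_nonneg.2 hc)]
    exact (Hf_mono h hb y hc).trans (le_abs_self _)
  · rw [abs_sub_comm, abs_of_nonneg (sub_nonneg.2 hc), abs_sub_comm]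
    exact (Hf_mono h hb y hc).trans (le_abs_self _)

theorem Hf_ub (h : Cn f κ) (hb : ‖b‖ < 1) (y : E) : Hf f b y (ub f b y) = 0 := by
  refine Classical.epsilon_spec (p := fun c => Hf f b y c = 0) ?_
  have hm : 0 < gam b * (1 - ‖b‖) := mul_pos (gam_pos hb) (sub_pos.2 hb)
  have hc : Continuous (Hf f b y) := by
    have := h.continuous
    unfold Hf
    fun_prop
  set R := |Hf f b y 0| / (gam b * (1 - ‖b‖)) with hR
  have hR0 : 0 ≤ R := div_nonneg (abs_nonneg _) hm.le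
  have hR1 : gam b * (1 - ‖b‖) * R = |Hf f b y 0| := mul_div_cancel₀ _ hm.ne'
  have h1 := Hf_mono h hb y hR0
  have h2 := Hf_mono h hb y (neg_nonpos.2 hR0)
  have h3 := le_abs_self (Hf f b y 0)
  have h4 := neg_abs_le (Hf f b y 0)
  obtain ⟨c, -, hc⟩ := intermediate_value_Icc (a := -R) (b := R) (by linarith) hc.continuousOn
    (show (0 : ℝ) ∈ Icc (Hf f b y (-R)) (Hf f b y R) from ⟨by linarith, by linarith⟩)
  exact ⟨c, hc⟩

theorem ub_sub_le (h : Cn f κ) (hb : ‖b‖ < 1) (y : E) (c : ℝ) :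
    |ub f b y - c| ≤ |Hf f b y c| / (gam b * (1 - ‖b‖)) := by
  have := Hf_abs h hb y c (ub f b y)
  rw [Hf_ub h hb, zero_sub, abs_neg] at this
  rwa [le_div_iff₀' (mul_pos (gam_pos hb) (sub_pos.2 hb))]

theorem ub_eq (h : Cn f κ) (hb : ‖b‖ < 1) {y : E} {c : ℝ} (hc : Hf f b y c = 0) : ub f b y = c := by
  have := ub_sub_le h hb y c
  rw [hc, abs_zero, zero_div] at this
  exact sub_eq_zero.1 (abs_nonpos_iff.1 this)

theorem ub_spec (h : Cn f κ) (hb : ‖b‖ < 1) (y : E) :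
    f (Bs (-b) (y, ub f b y)) = Bc (-b) (y, ub f b y) := (sub_eq_zero.1 (Hf_ub h hb y)).symm

theorem ub_zero (h : Cn f κ) (y : E) : ub f 0 y = f y :=
  ub_eq h (by simp) (by simp [Hf, Bs_apply, Bc_apply, gam])

theorem ub_homog (h : Cn f κ) (hb : ‖b‖ < 1) {t : ℝ} (ht : 0 < t) (y : E) :
    ub f b (t • y) = t * ub f b y := by
  refine ub_eq h hb ?_
  have : ((t • y, t * ub f b y) : E × ℝ) = t • (y, ub f b y) := rfl
  rw [Hf, this, map_smul, map_smul, h.homog t ht, ub_spec h hb, smul_eq_mul, sub_self]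

theorem ub_lip (h : Cn f κ) (hb : ‖b‖ < 1) (y y' : E) : |ub f b y - ub f b y'| ≤ ‖y - y'‖ := by
  have h1 := boost_inv (b := -b) (by simpa using hb) ((y, ub f b y) - (y', ub f b y'))
  have h2 := h.lip (Bs (-b) (y, ub f b y)) (Bs (-b) (y', ub f b y'))
  rw [ub_spec h hb, ub_spec h hb] at h2
  rw [map_sub, map_sub] at h1
  have h3 := sq_le_sq' (abs_le.1 h2).1 (abs_le.1 h2).2
  simp only [Prod.fst_sub, Prod.snd_sub] at h1
  exact abs_le_of_sq_le_sq' (by linarith) (norm_nonneg _) |> abs_le.2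

theorem ub_cone (h : Cn f κ) (hb : ‖b‖ < 1) (y : E) :
    Bc (-b) (y, ub f b y) ^ 2 * (1 - κ ^ 2) ≤ κ ^ 2 * (‖y‖ ^ 2 - ub f b y ^ 2) := by
  have h1 := boost_inv (b := -b) (by simpa using hb) (y, ub f b y)
  have h2 := h.bound (Bs (-b) (y, ub f b y))
  rw [ub_spec h hb] at h2
  have h3 := sq_le_sq' (abs_le.1 h2).1 (abs_le.1 h2).2
  simp only at h1
  rw [← h1]
  nlinarith

theorem ub_lt (h : Cn f κ) (hb : ‖b‖ < 1) {y : E} (hy : y ≠ 0) : |ub f b y| < ‖y‖ := by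
  have h1 := boost_inv (b := -b) (by simpa using hb) (y, ub f b y)
  have h2 := h.bound (Bs (-b) (y, ub f b y))
  rw [ub_spec h hb] at h2
  have h3 := sq_le_sq' (abs_le.1 h2).1 (abs_le.1 h2).2
  have h4 : Bs (-b) (y, ub f b y) ≠ 0 := fun h0 => by
    have h5 : Bc (-b) (y, ub f b y) = 0 := by simpa [h0] using h2
    have h6 := (boost_neg hb y (ub f b y)).1
    rw [h0, h5] at h6
    exact hy (by rw [← h6]; exact map_zero (Bs b))
  have h5 : 0 < ‖Bs (-b) (y, ub f b y)‖ ^ 2 * (1 - κ ^ 2) :=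
    mul_pos (pow_pos (norm_pos_iff.2 h4) 2) (by nlinarith [h.k0, h.k1])
  simp only at h1
  exact abs_lt_of_sq_lt_sq (by nlinarith) (norm_nonneg _)

theorem ub_continuousAt (h : Cn f κ) {z₀ : E × E} (hb : ‖z₀.1‖ < 1) :
    ContinuousAt (fun z : E × E => ub f z.1 z.2) z₀ := by
  have hg : ContinuousAt (fun z : E × E => gam z.1) z₀ :=
    ContinuousAt.inv₀ (by fun_prop) (Real.sqrt_pos.2 (one_sub_pos hb)).ne'
  have hg1 : gam z₀.1 + 1 ≠ 0 := by have := gam_pos hb; positivity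
  have hH : ContinuousAt (fun z : E × E => Hf f z.1 z.2 (ub f z₀.1 z₀.2)) z₀ := by
    have := h.continuous
    simp only [Hf, Bs_apply, Bc_apply, gam_neg]
    fun_prop (disch := exact hg1)
  have hm : gam z₀.1 * (1 - ‖z₀.1‖) ≠ 0 := (mul_pos (gam_pos hb) (sub_pos.2 hb)).ne'
  have h1 : ContinuousAt (fun z : E × E =>
      |Hf f z.1 z.2 (ub f z₀.1 z₀.2)| / (gam z.1 * (1 - ‖z.1‖))) z₀ :=
    hH.abs.div (by fun_prop) hm
  have h2 := h1.tendsto
  rw [Hf_ub h hb, abs_zero, zero_div] at h2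
  refine tendsto_iff_dist_tendsto_zero.2 (squeeze_zero' (Eventually.of_forall fun _ => dist_nonneg)
    ?_ h2)
  have h3 : ∀ᶠ z : E × E in 𝓝 z₀, ‖z.1‖ < 1 :=
    (by fun_prop : ContinuousAt (fun z : E × E => ‖z.1‖) z₀).eventually (gt_mem_nhds hb)
  filter_upwards [h3] with z hz using ub_sub_le h hz _ _

theorem norm_unit {y : E} (hy : y ≠ 0) : ‖‖y‖⁻¹ • y‖ = 1 := norm_smul_inv_norm hy

theorem Db_hom (f : E → ℝ) (b : E) : Hom0 (Db f b) := fun t ht y => by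
  have : ‖t • y‖⁻¹ • t • y = ‖y‖⁻¹ • y := by
    rw [norm_smul, Real.norm_of_nonneg ht.le, smul_smul, mul_inv, mul_right_comm,
      inv_mul_cancel₀ ht.ne', one_mul]
  rw [Db, Db, this]

theorem Db_continuousOn (h : Cn f κ) :
    ContinuousOn (fun z : E × E => Db f z.1 z.2) (ball 0 1 ×ˢ {0}ᶜ) := fun z hz => by
  have hy : ‖z.2‖ ≠ 0 := norm_ne_zero_iff.2 hz.2
  have h1 : ContinuousAt (fun z : E × E => ((z.1, ‖z.2‖⁻¹ • z.2) : E × E)) z := by
    fun_prop (disch := exact hy)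
  exact (Real.continuous_arcsin.continuousAt.comp
    ((ub_continuousAt h (z₀ := (z.1, ‖z.2‖⁻¹ • z.2)) (mem_ball_zero_iff.1 hz.1)).comp_of_eq h1
      rfl)).continuousWithinAt

theorem ub_unit_lt (h : Cn f κ) (hb : ‖b‖ < 1) {y : E} (hy : y ≠ 0) :
    |ub f b (‖y‖⁻¹ • y)| < 1 := by
  have h1 := norm_unit hy
  exact h1 ▸ ub_lt h hb (norm_ne_zero_iff.1 (by rw [h1]; exact one_ne_zero))

theorem Db_lt (h : Cn f κ) (hb : ‖b‖ < 1) {y : E} (hy : y ≠ 0) : |Db f b y| < π / 2 :=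
  abs_lt.2 ⟨Real.neg_pi_div_two_lt_arcsin.2 (abs_lt.1 (ub_unit_lt h hb hy)).1,
    Real.arcsin_lt_pi_div_two.2 (abs_lt.1 (ub_unit_lt h hb hy)).2⟩

theorem sin_Db (h : Cn f κ) (hb : ‖b‖ < 1) {y : E} (hy : y ≠ 0) :
    Real.sin (Db f b y) = ub f b (‖y‖⁻¹ • y) :=
  Real.sin_arcsin (abs_lt.1 (ub_unit_lt h hb hy)).1.le (abs_lt.1 (ub_unit_lt h hb hy)).2.le

theorem cos_Db_pos (h : Cn f κ) (hb : ‖b‖ < 1) {y : E} (hy : y ≠ 0) : 0 < Real.cos (Db f b y) :=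
  Real.cos_pos_of_mem_Ioo (abs_lt.1 (Db_lt h hb hy))

theorem Db_angle (h : Cn f κ) (hb : ‖b‖ < 1) {y y' : E} (hy : y ≠ 0) (hy' : y' ≠ 0) :
    |Db f b y - Db f b y'| ≤ InnerProductGeometry.angle y y' := by
  set s := Real.cos (Db f b y') with hs
  set t := Real.cos (Db f b y) with ht
  have hs0 : 0 < s := cos_Db_pos h hb hy'
  have ht0 : 0 < t := cos_Db_pos h hb hy
  have h1 := ub_lip h hb (s • ‖y‖⁻¹ • y) (t • ‖y'‖⁻¹ • y')
  rw [ub_homog h hb hs0, ub_homog h hb ht0, ← sin_Db h hb hy, ← sin_Db h hb hy'] at h1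
  have h2 := sq_le_sq' (abs_le.1 h1).1 (abs_le.1 h1).2
  rw [norm_sub_sq_real, norm_smul s, norm_smul t, norm_unit hy, norm_unit hy', inner_smul_left,
    inner_smul_right, Real.norm_of_nonneg hs0.le, Real.norm_of_nonneg ht0.le] at h2
  have h3 : ⟪‖y‖⁻¹ • y, ‖y'‖⁻¹ • y'⟫ = ⟪y, y'⟫ / (‖y‖ * ‖y'‖) := by
    rw [inner_smul_left, inner_smul_right]
    simp only [conj_trivial]
    ring
  have h4 := Real.sin_sq_add_cos_sq (Db f b y)
  have h5 := Real.sin_sq_add_cos_sq (Db f b y')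
  rw [← ht] at h4
  rw [← hs] at h5
  have h6 : ⟪y, y'⟫ / (‖y‖ * ‖y'‖) ≤ Real.cos |Db f b y - Db f b y'| := by
    rw [Real.cos_abs, Real.cos_sub, ← hs, ← ht, ← h3]
    simp only [conj_trivial] at h2
    refine le_of_mul_le_mul_left ?_ (mul_pos hs0 ht0)
    nlinarith
  have h7 := abs_lt.1 (Db_lt h hb hy)
  have h8 := abs_lt.1 (Db_lt h hb hy')
  rw [← Real.arccos_cos (abs_nonneg (Db f b y - Db f b y'))
    (abs_le.2 ⟨by linarith, by linarith⟩)]
  exact Real.arccos_le_arccos h6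

theorem Db_bdry (h : Cn f κ) (hb : ‖b‖ < 1) {y : E} (hy : ‖y‖ = 1) :
    |Real.sin (Db f b y) + ⟪b, y⟫| ≤ κ / √(1 - κ ^ 2) * √(1 - ‖b‖ ^ 2) := by
  have hk : 0 < 1 - κ ^ 2 := by nlinarith [h.k0, h.k1]
  rw [sin_Db h hb (norm_ne_zero_iff.1 (by rw [hy]; exact one_ne_zero)), hy, inv_one, one_smul]
  have h1 := ub_cone h hb y
  rw [Bc_apply, gam_neg, inner_neg_left, sub_neg_eq_add, hy] at h1
  have h2 : |gam b * (ub f b y + ⟪b, y⟫)| * √(1 - κ ^ 2) ≤ κ := by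
    refine le_of_sq_le_sq ?_ h.k0
    rw [mul_pow, sq_abs, Real.sq_sqrt hk.le]
    nlinarith [mul_nonneg (sq_nonneg κ) (sq_nonneg (ub f b y))]
  rw [← le_div_iff₀ (Real.sqrt_pos.2 hk), abs_mul, abs_of_pos (gam_pos hb)] at h2
  have h3 := mul_le_mul_of_nonneg_right h2 (Real.sqrt_nonneg (1 - ‖b‖ ^ 2))
  rwa [mul_right_comm, gam_mul_sqrt hb, one_mul] at h3

end Crest.Agent.R246.G2
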