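import Crest.Agent.R246.G2.Jac

/-! Row 246, block G2: the mass estimate for the boosted family. -/

set_option autoImplicit false
set_option linter.unusedSectionVars false

open Set Module Filter Topology Metric MeasureTheory
open scoped RealInnerProductSpace ContDiff Real ENNReal

noncomputable section

namespace Crest.Agent.R246.G2

variable {E : Type} [NormedAddCommGroup E] [InnerProductSpace ℝ E] [FiniteDimensional ℝ E]
  [MeasurableSpace E] [BorelSpace E] {C : Set E} {ψ : E → ℝ} {Φ : E ≃ₜ E} {N : E → E} {b : E}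

theorem continuous_rk : Continuous fun p : E × E => rk p.1 p.2 := by
  have : (fun p : E × E => rk p.1 p.2)
      = fun p => ContinuousLinearMap.smulRightL ℝ E E (innerSL ℝ p.2) p.1 := rfl
  rw [this]
  exact (((ContinuousLinearMap.smulRightL ℝ E E).continuous.comp
    ((innerSL ℝ (E := E)).continuous.comp continuous_snd))).clm_apply continuous_fst

theorem continuous_prj : Continuous fun ν : E => prj ν :=
  continuous_const.sub (continuous_rk.comp (continuous_id.prodMk continuous_id))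

theorem grad_contDiffAt (h : SMC C ψ) {y : E} (hy : y ∈ C) (h0 : y ≠ 0) :
    ContDiffAt ℝ 1 (gradient ψ) y :=
  (InnerProductSpace.toDual ℝ E).symm.contDiff.contDiffAt.comp y
    ((smc_contDiffAt h hy h0).fderiv_right (m := 1) (by norm_cast))

theorem Lop_continuousAt (hP : Pert C ψ Φ N) (hb : ‖b‖ < 1) {z : E × ℝ} (hy : z.1 ∈ C)
    (h0 : z.1 ≠ 0) :
    ContinuousAt (fun z : E × ℝ => Lop Φ N (Real.cos z.2) (qy Φ N b z) z.1) z := by
  obtain ⟨-, -, h1, h2⟩ := pert_diff hP hy h0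
  exact ((Real.continuous_cos.comp continuous_snd).continuousAt.smul
    (h1.comp continuousAt_fst)).add ((rho_diff hP hb hy h0).continuousAt.smul
      (h2.comp continuousAt_fst))

theorem Jac_continuousAt (h : SMC C ψ) (hP : Pert C ψ Φ N) (hb : ‖b‖ < 1) {s : ℝ} {y : E}
    (hy : y ∈ C) (h0 : y ≠ 0) :
    ContinuousAt (fun y => Jac ψ Φ N (Real.cos s) (qy Φ N b (y, s)) y) y := by
  have h1 := (grad_contDiffAt h hy h0).continuousAt
  have h2 : ContinuousAt (fun y => Lop Φ N (Real.cos s) (qy Φ N b (y, s)) y) y :=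
    (Lop_continuousAt hP hb (z := (y, s)) hy h0).comp_of_eq (f := fun y => (y, s))
      (by fun_prop) rfl
  exact (ContinuousLinearMap.continuous_det.continuousAt.comp
    ((h2.clm_comp (continuous_prj.continuousAt.comp h1)).add (continuous_rk.continuousAt.comp
      ((pert_diff hP hy h0).2.1.continuousAt.prodMk h1)))).abs.div_const _

theorem measurable_Db {f : E → ℝ} {κ : ℝ} (hc : Cn f κ) (hb : ‖b‖ < 1) : Measurable (Db f b) := by
  have h1 : Continuous (ub f b) := (LipschitzWith.of_dist_le_mul (K := 1) fun y y' => by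
    simpa [Real.dist_eq, dist_eq_norm] using ub_lip hc hb y y').continuous
  exact Real.continuous_arcsin.measurable.comp (h1.measurable.comp
    (measurable_norm.inv.smul measurable_id))

theorem continuous_gk (d : ℕ) (p : E) (r : ℝ) : Continuous (gk d p r) := by
  unfold gk
  fun_prop

theorem gk_nonneg (d : ℕ) (y : E) : 0 ≤ gk d 0 1 y := by
  unfold gk
  positivity

theorem core (hA : StArea E) {d : ℕ} (hd : finrank ℝ E = d + 1) (h : SMC C ψ) (hP : Pert C ψ Φ N)
    {κ Λ : ℝ} (hc : Cn (sd C ψ Φ) κ) (hb : ‖b‖ < 1)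
    (hM : ∀ s ∈ Ioo (-(π / 2)) (π / 2), ∃ M : E → ℝ≥0∞,
      (∀ y ∈ C, y ≠ 0 →
        (∀ v, ⟪gradient ψ y, v⟫ = 0 → 0 ≤ ⟪fderiv ℝ Φ y v,
          Lop Φ N (Real.cos s) (qf b s (‖Φ y‖⁻¹ • Φ y) (N y)) y v⟫) →
        |qf b s (‖Φ y‖⁻¹ • Φ y) (N y)| * √(1 - κ ^ 2) ≤ κ * Real.cos s →
        ENNReal.ofReal (Jac ψ Φ N (Real.cos s) (qf b s (‖Φ y‖⁻¹ • Φ y) (N y)) y) ≤ M y) ∧
      ∫⁻ y, ENNReal.ofReal (gk d 0 1 (Φ y)) * M y ∂ar d C ≤ ENNReal.ofReal Λ)
    {G : ℝ → ℝ≥0∞} (hG : Measurable G) :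
    ∫⁻ y, ENNReal.ofReal (gk d 0 1 y / ‖y‖) * G (Db (sd C ψ Φ) b y) ≤
      ENNReal.ofReal Λ * ∫⁻ s in Ioo (-(π / 2)) (π / 2), G s := by
  classical
  set f := sd C ψ Φ with hf
  let Ω : Set (E × ℝ) := (C \ {0}) ×ˢ Ioo (-(π / 2)) (π / 2)
  have hΩ : MeasurableSet Ω := (measurableSet_diff h).prod measurableSet_Ioo
  let S : Set Ω := {z | (∀ v, 0 ≤ ⟪fderiv ℝ Φ z.1.1 (prj (gradient ψ z.1.1) v),
      Lop Φ N (Real.cos z.1.2) (qy Φ N b z.1) z.1.1 (prj (gradient ψ z.1.1) v)⟫) ∧
    |qy Φ N b z.1| * √(1 - κ ^ 2) ≤ κ * Real.cos z.1.2 ∧ Db f b (Yf Φ N b z.1) = z.1.2}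
  have hcont : ∀ {X : Type} [TopologicalSpace X] {g : E × ℝ → X},
      (∀ z : E × ℝ, z.1 ∈ C → z.1 ≠ 0 → ContinuousAt g z) → Continuous fun z : Ω => g z.1 :=
    fun hg => ContinuousOn.domRestrict fun z hz => (hg z hz.1.1 hz.1.2).continuousWithinAt
  have hS : IsClosed S := by
    refine IsClosed.and ?_ (IsClosed.and ?_ ?_)
    · rw [ofPred_forall]
      refine isClosed_iInter fun v => isClosed_le continuous_const (hcont (g := fun z =>
        ⟪fderiv ℝ Φ z.1 (prj (gradient ψ z.1) v),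
          Lop Φ N (Real.cos z.2) (qy Φ N b z) z.1 (prj (gradient ψ z.1) v)⟫) fun z hy h0 => ?_)
      have h1 : ContinuousAt (fun z : E × ℝ => prj (gradient ψ z.1) v) z :=
        (continuous_prj.continuousAt.comp ((grad_contDiffAt h hy h0).continuousAt.comp
          continuousAt_fst)).clm_apply continuousAt_const
      exact (((pert_diff hP hy h0).2.2.1.comp continuousAt_fst).clm_apply h1).inner
        ((Lop_continuousAt hP hb hy h0).clm_apply h1)
    · exact isClosed_le ((hcont fun z hy h0 => (qy_diff hP hb hy h0).continuousAt).abs.mul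
        continuous_const) (by fun_prop)
    · refine isClosed_eq (hcont (g := fun z => Db f b (Yf Φ N b z)) fun z hy h0 => ?_) (by fun_prop)
      have hne : Yf Φ N b z ≠ 0 := by
        rw [← norm_ne_zero_iff, norm_Yf h hP hb hy h0, norm_ne_zero_iff]
        exact pert_ne hP h0
      have h1 : ContinuousAt (fun z : E × E => Db f z.1 z.2) (b, Yf Φ N b z) :=
        (Db_continuousOn hc).continuousAt ((isOpen_ball.prod isOpen_compl_singleton).mem_nhds
          ⟨mem_ball_zero_iff.2 hb, hne⟩)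
      exact h1.comp_of_eq (f := fun z => (b, Yf Φ N b z))
        (continuousAt_const.prodMk (Yf_diff hP hb hy h0).continuousAt) rfl
  set A : Set (E × ℝ) := Subtype.val '' S with hAdef
  have hAm : MeasurableSet A := hΩ.subtype_image hS.measurableSet
  have hAΩ : ∀ z ∈ A, z ∈ Ω := by rintro _ ⟨z, -, rfl⟩; exact z.2
  have hAS : ∀ z (hz : z ∈ A), (⟨z, hAΩ z hz⟩ : Ω) ∈ S := by rintro _ ⟨z, hz, rfl⟩; exact hz
  let K : ℝ → E → ℝ≥0∞ := fun s => ((fun y => (y, s)) ⁻¹' A).indicator fun y =>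
    ENNReal.ofReal (gk d 0 1 (Φ y)) * ENNReal.ofReal (Jac ψ Φ N (Real.cos s) (qy Φ N b (y, s)) y)
  have hK : ∀ s, Measurable (K s) := fun s => by
    have h1 : MeasurableSet ((fun y : E => (y, s)) ⁻¹' A) := measurable_prodMk_right hAm
    have h2 : Measurable (((fun y : E => (y, s)) ⁻¹' A).piecewise
        (fun y => Jac ψ Φ N (Real.cos s) (qy Φ N b (y, s)) y) 0) :=
      ContinuousOn.measurable_piecewise (fun y hy => (Jac_continuousAt h hP hb (hAΩ _ hy).1.1
        (hAΩ _ hy).1.2).continuousWithinAt) continuousOn_const h1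
    convert (((continuous_gk d 0 1).comp Φ.continuous).measurable.ennreal_ofReal.mul
      h2.ennreal_ofReal) using 1
    ext y
    by_cases hy : y ∈ (fun y : E => (y, s)) ⁻¹' A
    · simp only [K, indicator_of_mem hy, piecewise_eq_of_mem _ _ _ hy, Pi.mul_apply,
        Function.comp_apply]
    · simp only [K, indicator_of_notMem hy, piecewise_eq_of_notMem _ _ _ hy, Pi.mul_apply,
        Pi.zero_apply, ENNReal.ofReal_zero, mul_zero]
  have hφ : Measurable fun y : E => ENNReal.ofReal (gk d 0 1 y / ‖y‖) * G (Db f b y) :=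
    ((continuous_gk d 0 1).measurable.div measurable_norm).ennreal_ofReal.mul
      (hG.comp (measurable_Db hc hb))
  have hsupp : Function.support (fun y : E => ENNReal.ofReal (gk d 0 1 y / ‖y‖) * G (Db f b y))
      ⊆ Yf Φ N b '' A := fun y' hy' => by
    have hne : y' ≠ 0 := by rintro rfl; simp at hy'
    obtain ⟨y, hy, h0, hY, h1, h2⟩ := cover h hP hc hb hne
    refine ⟨(y, Db f b y'), ⟨⟨(y, Db f b y'), ⟨hy, h0⟩, abs_lt.1 (Db_lt hc hb hne)⟩,
      ⟨fun v => ?_, h2, ?_⟩, rfl⟩, hY⟩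
    · exact h1 _ (inner_prj (smc_norm h hy h0) v)
    · exact congrArg (Db f b) hY
  rw [← setLIntegral_eq_of_support_subset hsupp]
  refine (area_ineq hA hd h hAm (fun z hz => (hAΩ z hz).1)
    (fun z hz => Yf_diff hP hb (hAΩ z hz).1.1 (hAΩ z hz).1.2) hφ (J := fun s y => K s y * G s)
    (fun s => (hK s).mul_const _) fun z hz => le_of_eq ?_).trans ?_
  · obtain ⟨⟨hy, h0⟩, hs⟩ := hAΩ z hz
    have h1 : z.1 ∈ (fun y : E => (y, z.2)) ⁻¹' A := hz
    have h2 := norm_Yf h hP hb hy h0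
    have h3 : gk d 0 1 (Yf Φ N b z) = gk d 0 1 (Φ z.1) := by simp only [gk, sub_zero, h2]
    have h4 : 0 < ‖Φ z.1‖ := norm_pos_iff.2 (pert_ne hP h0)
    simp only [K, indicator_of_mem h1]
    rw [abs_det_tanD h hP hb hy h0 (Real.cos_pos_of_mem_Ioo hs), (hAS z hz).2.2, h2, h3,
      mul_right_comm, ← ENNReal.ofReal_mul (div_nonneg (gk_nonneg _ _) h4.le),
      ← ENNReal.ofReal_mul (gk_nonneg _ _), ← mul_assoc, div_mul_cancel₀ _ h4.ne']
  rw [← lintegral_const_mul _ hG, ← lintegral_indicator measurableSet_Ioo]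
  refine lintegral_mono fun s => ?_
  by_cases hs : s ∈ Ioo (-(π / 2)) (π / 2)
  · obtain ⟨M, hM1, hM2⟩ := hM s hs
    simp only [indicator_of_mem hs]
    rw [lintegral_mul_const _ (hK s)]
    refine mul_le_mul_left (le_trans (lintegral_mono fun y => ?_) hM2) _
    by_cases hy : y ∈ (fun y : E => (y, s)) ⁻¹' A
    · simp only [K, indicator_of_mem hy]
      obtain ⟨h1, h2, -⟩ := hAS _ hy
      refine mul_le_mul_right (hM1 y (hAΩ _ hy).1.1 (hAΩ _ hy).1.2 (fun v hv => ?_) h2) _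
      have := h1 v
      rwa [prj_of_inner hv] at this
    · simp only [K, indicator_of_notMem hy, zero_le]
  · have : ∀ y, K s y = 0 := fun y => indicator_of_notMem
      (s := (fun y : E => (y, s)) ⁻¹' A) (fun hy => hs (hAΩ (y, s) hy).2) _
    simp [this]

end Crest.Agent.R246.G2
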