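import Crest.Agent.R246.G2.Near
import Crest.Agent.R246.G2.Area

/-! Row 246, block G2: the boosted fronts and their Jacobian. -/

set_option autoImplicit false
set_option linter.unusedSectionVars false

open Set Module Filter Topology Metric
open scoped RealInnerProductSpace ContDiff Real

noncomputable section

namespace Crest.Agent.R246.G2

variable {E : Type} [NormedAddCommGroup E] [InnerProductSpace ℝ E] [FiniteDimensional ℝ E]
  {C : Set E} {ψ : E → ℝ} {Φ : E ≃ₜ E} {N : E → E} {b : E}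

def qy (Φ N : E → E) (b : E) (z : E × ℝ) : ℝ := qf b z.2 (‖Φ z.1‖⁻¹ • Φ z.1) (N z.1)

def rho (Φ N : E → E) (b : E) (z : E × ℝ) : ℝ := qy Φ N b z * ‖Φ z.1‖

def Zf (Φ N : E → E) (b : E) (z : E × ℝ) : E × ℝ :=
  (Real.cos z.2 • Φ z.1 + rho Φ N b z • N z.1, rho Φ N b z)

/-- the boosted front -/
def Yf (Φ N : E → E) (b : E) (z : E × ℝ) : E := Bs b (Zf Φ N b z)

theorem den_pos (hb : ‖b‖ < 1) {n : E} (hn : ‖n‖ = 1) : 0 < 1 - ⟪b, n⟫ := by
  have := real_inner_le_norm b n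
  rw [hn, mul_one] at this
  linarith

theorem qy_diff (hP : Pert C ψ Φ N) (hb : ‖b‖ < 1) {z : E × ℝ} (hy : z.1 ∈ C) (h0 : z.1 ≠ 0) :
    DifferentiableAt ℝ (qy Φ N b) z := by
  obtain ⟨hΦ, hN, -, -⟩ := pert_diff hP hy h0
  have h1 : DifferentiableAt ℝ (fun z : E × ℝ => Φ z.1) z := hΦ.comp z differentiableAt_fst
  have h2 : DifferentiableAt ℝ (fun z : E × ℝ => N z.1) z := hN.comp z differentiableAt_fst
  have h3 : DifferentiableAt ℝ (fun z : E × ℝ => ‖Φ z.1‖) z := h1.norm ℝ (pert_ne hP h0)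
  have h4 : DifferentiableAt ℝ (fun z : E × ℝ => ‖Φ z.1‖⁻¹) z :=
    h3.inv (norm_ne_zero_iff.2 (pert_ne hP h0))
  have h5 : DifferentiableAt ℝ (fun z : E × ℝ => (1 - ⟪b, N z.1⟫)⁻¹) z :=
    (((differentiableAt_const b).inner ℝ h2).const_sub 1).inv (den_pos hb (hP.unit _ hy h0)).ne'
  exact ((differentiableAt_snd.sin.mul_const _).add (differentiableAt_snd.cos.mul
    ((differentiableAt_const b).inner ℝ (h4.smul h1)))).mul h5

theorem rho_diff (hP : Pert C ψ Φ N) (hb : ‖b‖ < 1) {z : E × ℝ} (hy : z.1 ∈ C) (h0 : z.1 ≠ 0) :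
    DifferentiableAt ℝ (rho Φ N b) z :=
  (qy_diff hP hb hy h0).mul
    (((pert_diff hP hy h0).1.comp z differentiableAt_fst).norm ℝ (pert_ne hP h0))

theorem Bc_Zf {Φ : E → E} (hb : ‖b‖ < 1) {z : E × ℝ} (h1 : Φ z.1 ≠ 0) (h2 : 1 - ⟪b, N z.1⟫ ≠ 0) :
    Bc b (Zf Φ N b z) = ‖Φ z.1‖ * Real.sin z.2 := by
  have h3 := gam_mul_sqrt hb
  have h4 : ‖Φ z.1‖ ≠ 0 := norm_ne_zero_iff.2 h1
  have h5 : rho Φ N b z * (1 - ⟪b, N z.1⟫)
      = ‖Φ z.1‖ * Real.sin z.2 * √(1 - ‖b‖ ^ 2) + Real.cos z.2 * ⟪b, Φ z.1⟫ := by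
    simp only [rho, qy, qf, inner_smul_right]
    field_simp
  rw [Zf, Bc_apply, inner_add_right, inner_smul_right, inner_smul_right]
  linear_combination gam b * h5 + ‖Φ z.1‖ * Real.sin z.2 * h3

theorem norm_Yf (h : SMC C ψ) (hP : Pert C ψ Φ N) (hb : ‖b‖ < 1) {z : E × ℝ} (hy : z.1 ∈ C)
    (h0 : z.1 ≠ 0) : ‖Yf Φ N b z‖ = ‖Φ z.1‖ := by
  have h1 := boost_inv hb (Zf Φ N b z)
  rw [Bc_Zf hb (pert_ne hP h0) (den_pos hb (hP.unit _ hy h0)).ne'] at h1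
  simp only [Zf] at h1
  rw [norm_add_sq_real, inner_smul_left, inner_smul_right, real_inner_comm, pert_perp h hP hy h0,
    norm_smul, norm_smul, hP.unit _ hy h0, mul_pow, mul_pow, mul_pow, Real.norm_eq_abs,
    Real.norm_eq_abs, sq_abs, sq_abs] at h1
  refine (sq_eq_sq₀ (norm_nonneg _) (norm_nonneg _)).1 ?_
  have h2 := Real.sin_sq_add_cos_sq z.2
  simp only [Yf, Zf]
  linear_combination h1 + ‖Φ z.1‖ ^ 2 * h2

theorem hasFDerivAt_Zf (hP : Pert C ψ Φ N) (hb : ‖b‖ < 1) {z : E × ℝ} (hy : z.1 ∈ C)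
    (h0 : z.1 ≠ 0) : ∃ Z' : E × ℝ →L[ℝ] E × ℝ, HasFDerivAt (Zf Φ N b) Z' z ∧ ∀ v t, ∃ σ : ℝ,
      Z' (v, t) = (Lop Φ N (Real.cos z.2) (qy Φ N b z) z.1 v - (Real.sin z.2 * t) • Φ z.1
        + σ • N z.1, σ) := by
  obtain ⟨hΦ, hN, -, -⟩ := pert_diff hP hy h0
  have h1 := hΦ.hasFDerivAt.comp z hasFDerivAt_fst
  have h2 := hN.hasFDerivAt.comp z hasFDerivAt_fst
  have h3 := (rho_diff hP hb hy h0).hasFDerivAt
  have h4 := (hasFDerivAt_snd (𝕜 := ℝ) (p := z)).cos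
  refine ⟨_, ((h4.smul h1).add (h3.smul h2)).prodMk h3, fun v t => ⟨fderiv ℝ (rho Φ N b) z (v, t), ?_⟩⟩
  simp only [ContinuousLinearMap.prod_apply, add_apply, smul_apply, ContinuousLinearMap.comp_apply,
    ContinuousLinearMap.coe_fst', ContinuousLinearMap.coe_snd', ContinuousLinearMap.smulRight_apply,
    Function.comp_apply, Lop, rho, smul_eq_mul, Prod.mk.injEq, and_true]
  module

theorem Yf_diff (hP : Pert C ψ Φ N) (hb : ‖b‖ < 1) {z : E × ℝ} (hy : z.1 ∈ C) (h0 : z.1 ≠ 0) :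
    DifferentiableAt ℝ (Yf Φ N b) z := by
  obtain ⟨Z', hZ, -⟩ := hasFDerivAt_Zf hP hb hy h0
  exact ((Bs b).hasFDerivAt.comp z hZ).differentiableAt

theorem tan_NN (h : SMC C ψ) (hP : Pert C ψ Φ N) {y : E} (hy : y ∈ C) (h0 : y ≠ 0) {v : E}
    (hv : ⟪gradient ψ y, v⟫ = 0) : ⟪N y, fderiv ℝ N y v⟫ = 0 := by
  have := tan_zero h hy h0 hv (pert_diff hP hy h0).2.1.hasFDerivAt.norm_sq (a := 1)
    fun z hz hz0 => by simp [hP.unit z hz hz0]
  simpa using this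

theorem tan_ΦN (h : SMC C ψ) (hP : Pert C ψ Φ N) {y : E} (hy : y ∈ C) (h0 : y ≠ 0) {v : E}
    (hv : ⟪gradient ψ y, v⟫ = 0) : ⟪Φ y, fderiv ℝ N y v⟫ = 0 := by
  obtain ⟨hΦ, hN, -, -⟩ := pert_diff hP hy h0
  have := tan_zero h hy h0 hv (hN.hasFDerivAt.inner ℝ hΦ.hasFDerivAt) (a := 0)
    fun z hz hz0 => pert_perp h hP hz hz0
  simp only [ContinuousLinearMap.comp_apply, ContinuousLinearMap.prod_apply, fderivInnerCLM_apply,
    hP.orth y hy h0 v hv, zero_add] at this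
  rwa [real_inner_comm]

theorem abs_det_tanD [MeasurableSpace E] [BorelSpace E] (h : SMC C ψ) (hP : Pert C ψ Φ N)
    (hb : ‖b‖ < 1) {z : E × ℝ} (hy : z.1 ∈ C) (h0 : z.1 ≠ 0) (hp : 0 < Real.cos z.2) :
    |(tanD (Yf Φ N b) ψ z).det| = ‖Φ z.1‖ * Jac ψ Φ N (Real.cos z.2) (qy Φ N b z) z.1 := by
  obtain ⟨hΦ, hN, -, -⟩ := pert_diff hP hy h0
  obtain ⟨Z', hZ, hZ'⟩ := hasFDerivAt_Zf hP hb hy h0
  have hν := smc_norm h hy h0
  have hne := pert_ne hP h0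
  have hr : 0 < ‖Φ z.1‖ := norm_pos_iff.2 hne
  have hNu := hP.unit _ hy h0
  have hperp := pert_perp h hP hy h0
  set L := Lop Φ N (Real.cos z.2) (qy Φ N b z) z.1 with hL
  have hNL : ∀ v, ⟪gradient ψ z.1, v⟫ = 0 → ⟪N z.1, L v⟫ = 0 := fun v hv => by
    simp only [hL, Lop, add_apply, smul_apply, inner_add_right, inner_smul_right,
      hP.orth _ hy h0 v hv, tan_NN h hP hy h0 hv, mul_zero, add_zero]
  have hΦL : ∀ v, ⟪gradient ψ z.1, v⟫ = 0 →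
      ⟪Φ z.1, L v⟫ = Real.cos z.2 * ⟪Φ z.1, fderiv ℝ Φ z.1 v⟫ := fun v hv => by
    simp only [hL, Lop, add_apply, smul_apply, inner_add_right, inner_smul_right,
      tan_ΦN h hP hy h0 hv, mul_zero, add_zero]
  -- the derivative of the time component
  have hn := (hΦ.norm ℝ hne).hasFDerivAt
  have hn' : ∀ v, ‖Φ z.1‖ * fderiv ℝ (fun y => ‖Φ y‖) z.1 v = ⟪Φ z.1, fderiv ℝ Φ z.1 v⟫ := fun v => by
    have := congrArg (fun A => A v) ((hn.pow 2).unique hΦ.hasFDerivAt.norm_sq)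
    simp at this
    linarith
  have hc : ∀ v t, Bc b (Z' (v, t)) = ‖Φ z.1‖ * (Real.cos z.2 * t)
      + Real.sin z.2 * fderiv ℝ (fun y => ‖Φ y‖) z.1 v := fun v t => by
    have h1 := (hn.comp z hasFDerivAt_fst).mul (hasFDerivAt_snd (𝕜 := ℝ) (p := z)).sin
    have h2 : HasFDerivAt (fun z : E × ℝ => ‖Φ z.1‖ * Real.sin z.2) (Bc b ∘L Z') z := by
      refine ((Bc b).hasFDerivAt.comp z hZ).congr_of_eventuallyEq ?_
      have e1 : ∀ᶠ z' : E × ℝ in 𝓝 z, Φ z'.1 ≠ 0 :=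
        (Φ.continuous.comp continuous_fst).continuousAt.eventually_ne hne
      have e2 : ∀ᶠ z' : E × ℝ in 𝓝 z, 1 - ⟪b, N z'.1⟫ ≠ 0 :=
        (continuousAt_const.sub (continuousAt_const.inner
          (hN.continuousAt.comp continuousAt_fst))).eventually_ne (den_pos hb hNu).ne'
      filter_upwards [e1, e2] with z' h1 h2 using (Bc_Zf hb h1 h2).symm
    have := congrArg (fun A => A (v, t)) (h2.unique h1)
    simpa using this
  have hY : fderiv ℝ (Yf Φ N b) z = Bs b ∘L Z' := ((Bs b).hasFDerivAt.comp z hZ).fderiv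
  refine abs_det_of_gram (x := ‖Φ z.1‖⁻¹ • Φ z.1) hp hr hNu (norm_unit hne)
    (by rw [inner_smul_left, real_inner_comm, hperp, mul_zero]) (fun w => hNL _ (inner_prj hν w))
    fun w => ?_
  have hv := inner_prj hν w
  have hT : tanD (Yf Φ N b) ψ z w = Bs b (Z' (prj (gradient ψ z.1) w, ⟪gradient ψ z.1, w⟫)) := by
    simp only [tanD, hY, ContinuousLinearMap.comp_apply, ContinuousLinearMap.prod_apply,
      innerSL_apply_apply]
  generalize prj (gradient ψ z.1) w = v at hv hT ⊢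
  generalize ⟪gradient ψ z.1, w⟫ = t at hT ⊢
  have h1 := boost_inv hb (Z' (v, t))
  rw [hc, ← hT] at h1
  obtain ⟨σ, hσ⟩ := hZ' v t
  have h2 := hNL v hv
  have h3 := hΦL v hv
  rw [← hn'] at h3
  have h4 : ‖(Z' (v, t)).1‖ ^ 2 - (Z' (v, t)).2 ^ 2 = ‖L v‖ ^ 2
      - 2 * (Real.sin z.2 * t) * ⟪Φ z.1, L v⟫ + (Real.sin z.2 * t) ^ 2 * ‖Φ z.1‖ ^ 2 := by
    rw [hσ]
    simp only
    rw [norm_add_sq_real, norm_sub_sq_real, inner_smul_right, inner_smul_right, inner_sub_left,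
      inner_smul_left, real_inner_comm (N z.1) (L v), h2, real_inner_comm (N z.1) (Φ z.1), hperp,
      norm_smul, norm_smul, hNu, mul_pow, mul_pow, Real.norm_eq_abs, Real.norm_eq_abs, sq_abs,
      sq_abs, real_inner_comm (Φ z.1) (L v)]
    simp only [conj_trivial]
    ring
  have h5 : ⟪‖Φ z.1‖⁻¹ • Φ z.1, L v⟫ = Real.cos z.2 * fderiv ℝ (fun y => ‖Φ y‖) z.1 v := by
    rw [inner_smul_left, h3, conj_trivial]
    field_simp
  have h6 := Real.sin_sq_add_cos_sq z.2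
  have h7 : (Real.cos z.2)⁻¹ * Real.cos z.2 = 1 := inv_mul_cancel₀ hp.ne'
  rw [h4, h3] at h1
  rw [h5]
  set α := fderiv ℝ (fun y => ‖Φ y‖) z.1 v
  linear_combination h1 + (‖Φ z.1‖ ^ 2 * t ^ 2 + α ^ 2) * h6
    - α ^ 2 * ((Real.cos z.2)⁻¹ * Real.cos z.2 + 1) * h7

/-- every nonzero point lies on the front `s = Db b y'`, at a good point -/
theorem cover (h : SMC C ψ) (hP : Pert C ψ Φ N) {κ : ℝ} (hc : Cn (sd C ψ Φ) κ) (hb : ‖b‖ < 1)
    {y' : E} (hy' : y' ≠ 0) : ∃ y ∈ C, y ≠ 0 ∧ Yf Φ N b (y, Db (sd C ψ Φ) b y') = y' ∧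
      (∀ v, ⟪gradient ψ y, v⟫ = 0 → 0 ≤ ⟪fderiv ℝ Φ y v,
        Lop Φ N (Real.cos (Db (sd C ψ Φ) b y')) (qy Φ N b (y, Db (sd C ψ Φ) b y')) y v⟫) ∧
      |qy Φ N b (y, Db (sd C ψ Φ) b y')| * √(1 - κ ^ 2) ≤ κ * Real.cos (Db (sd C ψ Φ) b y') := by
  set f := sd C ψ Φ with hf
  set s := Db f b y' with hs
  set p := Real.cos s with hp
  have hp0 : 0 < p := cos_Db_pos hc hb hy'
  have hr : 0 < ‖y'‖ := norm_pos_iff.2 hy'
  have hsin : ub f b y' = ‖y'‖ * Real.sin s := by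
    rw [hs, sin_Db hc hb hy', ub_homog hc hb (inv_pos.2 hr), mul_inv_cancel_left₀ hr.ne']
  set w := Bs (-b) (y', ub f b y') with hw
  set c := Bc (-b) (y', ub f b y') with hcc
  have hfw : f w = c := ub_spec hc hb y'
  have hinv : ‖w‖ ^ 2 - c ^ 2 = (‖y'‖ * p) ^ 2 := by
    have := boost_inv (b := -b) (by simpa using hb) (y', ub f b y')
    rw [← hw, ← hcc] at this
    simp only [hsin] at this
    rw [this]
    linear_combination (-‖y'‖ ^ 2) * Real.sin_sq_add_cos_sq s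
  have hfw' : f (p⁻¹ • w) = p⁻¹ * c := by rw [hc.homog _ (inv_pos.2 hp0), hfw]
  have hlt : infDist (p⁻¹ • w) (Φ '' C) < ‖p⁻¹ • w‖ := by
    rw [← abs_sd (ψ := ψ), ← hf, hfw', norm_smul, abs_mul, Real.norm_eq_abs]
    refine mul_lt_mul_of_pos_left (abs_lt_of_sq_lt_sq ?_ (norm_nonneg _))
      (abs_pos.2 (inv_pos.2 hp0).ne')
    nlinarith [pow_pos (mul_pos hr hp0) 2]
  obtain ⟨y, hy, h0, hwy, hpsd⟩ := near h hP hlt
  rw [← hf, hfw'] at hwy hpsd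
  have hwy' : w = p • Φ y + c • N y := by
    have := congrArg (fun u => p • u) hwy
    simp only [smul_add, smul_smul, mul_inv_cancel₀ hp0.ne', one_smul,
      mul_inv_cancel_left₀ hp0.ne'] at this
    exact this
  have hNu := hP.unit y hy h0
  have hnorm : ‖Φ y‖ = ‖y'‖ := by
    rw [hwy', norm_add_sq_real, inner_smul_left, inner_smul_right, real_inner_comm,
      pert_perp h hP hy h0, norm_smul, norm_smul, hNu, mul_pow, mul_pow, Real.norm_eq_abs,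
      Real.norm_eq_abs, sq_abs, sq_abs] at hinv
    refine (sq_eq_sq₀ (norm_nonneg _) (norm_nonneg _)).1 (mul_left_cancel₀ (pow_pos hp0 2).ne' ?_)
    linear_combination hinv
  obtain ⟨hB1, hB2⟩ := boost_neg hb y' (ub f b y')
  rw [← hw, ← hcc] at hB1 hB2
  have hden := den_pos hb hNu
  have hrho : rho Φ N b (y, s) = c := by
    rw [Bc_apply, hsin, hwy', inner_add_right, inner_smul_right, inner_smul_right] at hB2
    have h3 := gam_mul_sqrt hb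
    simp only [rho, qy, qf, inner_smul_right, hnorm, ← hp]
    field_simp
    linear_combination (-√(1 - ‖b‖ ^ 2)) * hB2 + (c - (p * ⟪b, Φ y⟫ + c * ⟪b, N y⟫)) * h3
  have hq : qy Φ N b (y, s) * ‖y'‖ = c := by rw [← hnorm]; exact hrho
  refine ⟨y, hy, h0, ?_, fun v hv => ?_, ?_⟩
  · rw [Yf, Zf, hrho, ← hB1, hwy']
  · have h1 : Lop Φ N p (qy Φ N b (y, s)) y v
        = p • (fderiv ℝ Φ y v + (p⁻¹ * c) • fderiv ℝ N y v) := by
      simp only [Lop, add_apply, smul_apply, hnorm, hq, smul_add, smul_smul,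
        mul_inv_cancel_left₀ hp0.ne']
    rw [h1, inner_smul_right]
    exact mul_nonneg hp0.le (hpsd v hv)
  · have h1 := ub_cone hc hb y'
    rw [← hcc, hsin, ← hq] at h1
    have hk : 0 < 1 - κ ^ 2 := by nlinarith [hc.k0, hc.k1]
    refine le_of_sq_le_sq ?_ (mul_nonneg hc.k0 hp0.le)
    rw [mul_pow, sq_abs, Real.sq_sqrt hk.le]
    refine le_of_mul_le_mul_right ?_ (pow_pos hr 2)
    have h2 := Real.sin_sq_add_cos_sq s
    rw [← hp] at h2
    have h3 : κ ^ 2 * (‖y'‖ ^ 2 - (‖y'‖ * Real.sin s) ^ 2) = (κ * p) ^ 2 * ‖y'‖ ^ 2 := by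
      linear_combination (-κ ^ 2 * ‖y'‖ ^ 2) * h2
    linarith

end Crest.Agent.R246.G2
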