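import Crest.Agent.R246.Defs

/-! Row 246, block G2: linear algebra (determinants). -/

set_option autoImplicit false
set_option linter.unusedSectionVars false

open Set Module
open scoped RealInnerProductSpace

noncomputable section

namespace Crest.Agent.R246.G2

variable {E : Type} [NormedAddCommGroup E] [InnerProductSpace ℝ E] [FiniteDimensional ℝ E]

@[simp] theorem rk_apply (a ν v : E) : rk a ν v = ⟪ν, v⟫ • a := by simp [rk]

@[simp] theorem prj_apply (ν v : E) : prj ν v = v - ⟪ν, v⟫ • ν := by simp [prj]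

theorem inner_prj {ν : E} (hν : ‖ν‖ = 1) (v : E) : ⟪ν, prj ν v⟫ = 0 := by
  rw [prj_apply, inner_sub_right, inner_smul_right, real_inner_self_eq_norm_sq, hν]
  ring

theorem prj_of_inner {ν v : E} (h : ⟪ν, v⟫ = 0) : prj ν v = v := by simp [h]

theorem normDet_eq_of_norm_eq {U V V' : Type} [NormedAddCommGroup U] [InnerProductSpace ℝ U]
    [FiniteDimensional ℝ U] [NormedAddCommGroup V] [InnerProductSpace ℝ V] [NormedAddCommGroup V']
    [InnerProductSpace ℝ V'] (T : U →ₗ[ℝ] V) (T' : U →ₗ[ℝ] V') (h : ∀ w, ‖T w‖ = ‖T' w‖) :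
    T.normDet = T'.normDet := by
  have hi : ∀ u v, ⟪T u, T v⟫ = ⟪T' u, T' v⟫ := fun u v => by
    rw [real_inner_eq_norm_add_mul_self_sub_norm_mul_self_sub_norm_mul_self_div_two,
      real_inner_eq_norm_add_mul_self_sub_norm_mul_self_sub_norm_mul_self_div_two, ← map_add,
      ← map_add, h, h, h]
  have h1 := T.normDet_sq_eq_det_gram (stdOrthonormalBasis ℝ U)
  have h2 := T'.normDet_sq_eq_det_gram (stdOrthonormalBasis ℝ U)
  have h3 : Matrix.gram ℝ (fun i => T (stdOrthonormalBasis ℝ U i))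
      = Matrix.gram ℝ (fun i => T' (stdOrthonormalBasis ℝ U i)) := by
    ext i j
    simp [Matrix.gram_apply, hi]
  rw [h3, ← h2] at h1
  exact (sq_eq_sq₀ T.normDet_nonneg T'.normDet_nonneg).1 (by exact_mod_cast h1)

theorem abs_det_eq_of_norm_eq (T T' : E →L[ℝ] E) (h : ∀ w, ‖T w‖ = ‖T' w‖) :
    |T.det| = |T'.det| := by
  have := normDet_eq_of_norm_eq (T : E →ₗ[ℝ] E) (T' : E →ₗ[ℝ] E) h
  rwa [LinearMap.normDet_eq_abs_det, LinearMap.normDet_eq_abs_det] at this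

theorem det_comp (S T : E →L[ℝ] E) : (S ∘L T).det = S.det * T.det := by
  simp [ContinuousLinearMap.det, ContinuousLinearMap.toLinearMap_comp, LinearMap.det_comp]

theorem det_id_add_rk (a ν : E) : (ContinuousLinearMap.id ℝ E + rk a ν).det = 1 + ⟪ν, a⟫ := by
  have : ((ContinuousLinearMap.id ℝ E + rk a ν : E →L[ℝ] E) : E →ₗ[ℝ] E)
      = LinearMap.transvection (innerₗ E ν) a := by
    ext v
    simp [LinearMap.transvection.apply]
  rw [ContinuousLinearMap.det, this, LinearMap.transvection.det]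
  simp

/-- the splitting `E = ℝ e ⊕ e^⊥` -/
def spl {e : E} (he : ‖e‖ = 1) : WithLp 2 (ℝ × (ℝ ∙ e)ᗮ) ≃ₗᵢ[ℝ] E :=
  (LinearIsometryEquiv.withLpProdCongr 2 (LinearIsometryEquiv.toSpanUnitSingleton e he)
    (LinearIsometryEquiv.refl ℝ _)).trans (ℝ ∙ e).orthogonalDecomposition.symm

theorem spl_apply {e : E} (he : ‖e‖ = 1) (s : ℝ) (x : (ℝ ∙ e)ᗮ) :
    spl he (WithLp.toLp 2 (s, x)) = s • e + (x : E) := by
  simp [spl]

theorem inner_coe_perp {e : E} (x : (ℝ ∙ e)ᗮ) : ⟪e, (x : E)⟫ = 0 :=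
  Submodule.mem_orthogonal_singleton_iff_inner_right.1 x.2

/-- the projection onto `e^⊥` -/
abbrev pe (e : E) : E →L[ℝ] (ℝ ∙ e)ᗮ := (ℝ ∙ e)ᗮ.orthogonalProjectionOnto

theorem pe_smul_add (e : E) (s : ℝ) (x : (ℝ ∙ e)ᗮ) : pe e (s • e + (x : E)) = x := by
  rw [map_add, map_smul, Submodule.orthogonalProjectionOnto_orthogonalComplement_singleton_eq_zero,
    smul_zero, zero_add, Submodule.orthogonalProjectionOnto_mem_subspace_eq_self]

theorem inner_smul_add {e : E} (he : ‖e‖ = 1) (s : ℝ) (x : (ℝ ∙ e)ᗮ) :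
    ⟪e, s • e + (x : E)⟫ = s := by
  rw [inner_add_right, inner_smul_right, inner_coe_perp, real_inner_self_eq_norm_sq, he]
  ring

theorem finrank_perp {d : ℕ} (hd : finrank ℝ E = d + 1) {e : E} (he : ‖e‖ = 1) :
    finrank ℝ (ℝ ∙ e)ᗮ = d := by
  have : Fact (finrank ℝ E = d + 1) := ⟨hd⟩
  exact Submodule.finrank_orthogonal_span_singleton (by rintro rfl; simp at he)

theorem abs_det_patch {e ν : E} (he : ‖e‖ = 1) (hν : ‖ν‖ = 1) (A : (ℝ ∙ e)ᗮ →L[ℝ] E)
    (hA : ∀ x, ⟪ν, A x⟫ = 0) :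
    |(A ∘L pe e + rk ν e).det| = LinearMap.normDet (A : (ℝ ∙ e)ᗮ →ₗ[ℝ] E) := by
  set R : E →L[ℝ] E := A ∘L pe e + rk ν e with hR
  -- the symmetric square
  let B : (ℝ ∙ e)ᗮ →ₗ[ℝ] (ℝ ∙ e)ᗮ := (A : (ℝ ∙ e)ᗮ →ₗ[ℝ] E).adjoint ∘ₗ (A : (ℝ ∙ e)ᗮ →ₗ[ℝ] E)
  let j : (ℝ × (ℝ ∙ e)ᗮ) ≃ₗ[ℝ] E :=
    (WithLp.linearEquiv 2 ℝ (ℝ × (ℝ ∙ e)ᗮ)).symm ≪≫ₗ (spl he).toLinearEquiv
  have hj : ∀ s x, j (s, x) = s • e + (x : E) := fun s x => spl_apply he s x
  have hRj : ∀ s x, R (j (s, x)) = A x + s • ν := fun s x => by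
    rw [hj, hR, add_apply, ContinuousLinearMap.comp_apply, pe_smul_add,
      rk_apply, inner_smul_add he]
  have key : (R : E →ₗ[ℝ] E).adjoint ∘ₗ (R : E →ₗ[ℝ] E)
      = (j : (ℝ × (ℝ ∙ e)ᗮ) →ₗ[ℝ] E) ∘ₗ (LinearMap.id.prodMap B) ∘ₗ
        (j.symm : E →ₗ[ℝ] (ℝ × (ℝ ∙ e)ᗮ)) := by
    ext w
    obtain ⟨⟨s, x⟩, rfl⟩ := j.surjective w
    refine ext_inner_left ℝ fun w' => ?_
    obtain ⟨⟨s', x'⟩, rfl⟩ := j.surjective w'
    simp only [LinearMap.comp_apply, LinearMap.adjoint_inner_right, ContinuousLinearMap.coe_coe,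
      LinearEquiv.coe_coe, LinearEquiv.symm_apply_apply, LinearMap.prodMap_apply, LinearMap.id_apply]
    rw [hRj, hRj, hj, hj]
    have h1 : ⟪(x' : E), (B x : E)⟫ = ⟪A x', A x⟫ := by
      rw [← Submodule.coe_inner]
      simp [B, LinearMap.adjoint_inner_right]
    have h2 : ⟪(x' : E), e⟫ = 0 := by rw [real_inner_comm]; exact inner_coe_perp x'
    have h3 : ⟪A x', ν⟫ = 0 := by rw [real_inner_comm]; exact hA x'
    simp only [inner_add_left, inner_add_right, inner_smul_left, inner_smul_right, h1, h2, h3, hA,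
      inner_coe_perp, real_inner_self_eq_norm_sq, he, hν]
    simp [add_comm]
  have h1 := (R : E →ₗ[ℝ] E).normDet_sq
  have h2 := (A : (ℝ ∙ e)ᗮ →ₗ[ℝ] E).normDet_sq
  rw [key, LinearMap.det_conj, LinearMap.det_prodMap, LinearMap.det_id, one_mul] at h1
  rw [ContinuousLinearMap.det, ← LinearMap.normDet_eq_abs_det]
  refine (sq_eq_sq₀ (LinearMap.normDet_nonneg _) (LinearMap.normDet_nonneg _)).1 ?_
  exact_mod_cast h1.trans h2.symm

/-- AM-GM for a symmetric nonnegative operator -/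
theorem det_le_trc_pow {M : E →L[ℝ] E} (hs : ∀ u v, ⟪M u, v⟫ = ⟪u, M v⟫)
    (hp : ∀ v, 0 ≤ ⟪v, M v⟫) :
    0 ≤ M.det ∧ M.det ≤ (trc M / finrank ℝ E) ^ finrank ℝ E := by
  have hsym : (M : E →ₗ[ℝ] E).IsSymmetric := hs
  set n := finrank ℝ E with hn
  have hnn : ∀ i, 0 ≤ hsym.eigenvalues hn.symm i := fun i => by
    have h1 := hp (hsym.eigenvectorBasis hn.symm i)
    have h2 := hsym.apply_eigenvectorBasis hn.symm i
    rw [ContinuousLinearMap.coe_coe] at h2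
    rw [h2, inner_smul_right, real_inner_self_eq_norm_sq,
      (hsym.eigenvectorBasis hn.symm).orthonormal.1 i] at h1
    simpa using h1
  have hdet : M.det = ∏ i, hsym.eigenvalues hn.symm i := by
    simpa using hsym.det_eq_prod_eigenvalues hn.symm
  have htr : trc M = ∑ i, hsym.eigenvalues hn.symm i := by
    simpa [trc] using hsym.trace_eq_sum_eigenvalues hn.symm
  have h0 : 0 ≤ M.det := hdet ▸ Finset.prod_nonneg fun i _ => hnn i
  refine ⟨h0, ?_⟩
  rcases Nat.eq_zero_or_pos n with h | hpos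
  · rw [hdet]
    have : IsEmpty (Fin n) := by rw [h]; infer_instance
    simp [h]
  have hn' : (0 : ℝ) < n := by exact_mod_cast hpos
  have h1 := Real.geom_mean_le_arith_mean Finset.univ (fun _ : Fin n => (1 : ℝ))
    (hsym.eigenvalues hn.symm) (fun _ _ => zero_le_one) (by simpa using hpos) (fun i _ => hnn i)
  simp only [Real.rpow_one, one_mul, Finset.sum_const, Finset.card_univ, Fintype.card_fin,
    nsmul_eq_mul, mul_one] at h1
  rw [← hdet, ← htr] at h1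
  have h2 := pow_le_pow_left₀ (Real.rpow_nonneg h0 _) h1 n
  rwa [Real.rpow_inv_natCast_pow h0 hpos.ne'] at h2

/-- the Jacobian of the boosted front from its Gram form -/
theorem abs_det_of_gram {T L : E →L[ℝ] E} {ν N x : E} {p r : ℝ} (hp : 0 < p) (hr : 0 < r)
    (hN : ‖N‖ = 1) (hx : ‖x‖ = 1) (hxN : ⟪x, N⟫ = 0) (hL : ∀ w, ⟪N, L (prj ν w)⟫ = 0)
    (hT : ∀ w, ‖T w‖ ^ 2 = ‖L (prj ν w)‖ ^ 2 + (p⁻¹ ^ 2 - 1) * ⟪x, L (prj ν w)⟫ ^ 2
      + r ^ 2 * ⟪ν, w⟫ ^ 2) :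
    |T.det| = r * (|(L ∘L prj ν + rk N ν).det| / p) := by
  set S : E →L[ℝ] E := (ContinuousLinearMap.id ℝ E + rk ((p⁻¹ - 1) • x) x) ∘L
    (ContinuousLinearMap.id ℝ E + rk ((r - 1) • N) N) with hS
  have hdS : S.det = p⁻¹ * r := by
    rw [hS, det_comp, det_id_add_rk, det_id_add_rk, inner_smul_right, inner_smul_right,
      real_inner_self_eq_norm_sq, real_inner_self_eq_norm_sq, hN, hx]
    ring
  rw [abs_det_eq_of_norm_eq T (S ∘L (L ∘L prj ν + rk N ν)) fun w => ?_, det_comp, abs_mul, hdS,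
    abs_of_pos (by positivity)]
  · field_simp
  refine (sq_eq_sq₀ (norm_nonneg _) (norm_nonneg _)).1 ?_
  rw [hT]
  have h1 := hL w
  set u := L (prj ν w) with hu
  set t := ⟪ν, w⟫ with ht
  have hNN : ⟪N, N⟫ = 1 := by rw [real_inner_self_eq_norm_sq, hN]; norm_num
  have hxx : ⟪x, x⟫ = 1 := by rw [real_inner_self_eq_norm_sq, hx]; norm_num
  have hNx : ⟪N, x⟫ = 0 := by rw [real_inner_comm]; exact hxN
  have huN : ⟪u, N⟫ = 0 := by rw [real_inner_comm]; exact h1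
  have hux : ⟪u, x⟫ = ⟪x, u⟫ := real_inner_comm _ _
  have e1 : (S ∘L (L ∘L prj ν + rk N ν)) w = u + (r * t) • N + ((p⁻¹ - 1) * ⟪x, u⟫) • x := by
    simp only [hS, ContinuousLinearMap.comp_apply, add_apply,
      ContinuousLinearMap.id_apply, rk_apply, ← hu, ← ht, inner_add_right, inner_smul_right, h1, hNN,
      hxN]
    module
  rw [e1, ← real_inner_self_eq_norm_sq (u + _ + _), ← real_inner_self_eq_norm_sq u]
  simp only [inner_add_left, inner_add_right, inner_smul_left, inner_smul_right, h1, hNN, hxx, hNx,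
    hxN, huN, hux, conj_trivial]
  ring

end Crest.Agent.R246.G2
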