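import Crest.Agent.R246.G2.Refl

/-! Row 246, block G2: final statements (see `R246/Blueprint.lean`). -/

set_option autoImplicit false

namespace Crest.Agent.R246

open G2

theorem stT1G (hG : Geo) : All fun E => StT1G E := by
  intro E _ _ _ _ _ d hd _ C ψ h Φ N hP κ Λ hκ hb hM
  have : Nontrivial E := Module.nontrivial_of_finrank_eq_succ hd
  have hc := sd_cn h hP hκ hb
  exact ⟨κ / √(1 - κ ^ 2), Db (sd C ψ Φ), Db_hom _, Db_continuousOn hc,
    fun b hb y y' hy hy' => Db_angle hc (mem_ball_zero_iff.1 hb) hy hy',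
    fun b hb y hy => Db_lt hc (mem_ball_zero_iff.1 hb) hy,
    fun b hb y hy => Db_bdry hc (mem_ball_zero_iff.1 hb) hy,
    fun b hb G hG' => core (hG.area E) hd h hP hc (mem_ball_zero_iff.1 hb) (hM b hb) hG'⟩

theorem stT1 (hG : Geo) : All fun E => StT1 E := by
  intro E _ _ _ _ _ d hd hd2 C ψ h hF
  obtain ⟨-, κ, hκ, hb⟩ := hG.rad E d hd hd2 C ψ h hF
  exact stT1G hG E d hd hd2 C ψ h _ _ (pert_refl h) κ _ hκ (by simpa using hb)
    fun b _ => refl_hyp (hG.smc E) hd hd2 h κ b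

theorem stTube (hG : Geo) : All fun E => StTube E := by
  intro E _ _ _ _ _ d hd hd2 C ψ h hF G hG'
  obtain ⟨-, κ, hκ, hb⟩ := hG.rad E d hd hd2 C ψ h hF
  have : Nontrivial E := Module.nontrivial_of_finrank_eq_succ hd
  have hc := sd_cn h (pert_refl h) hκ (by simpa using hb)
  have h1 := core (b := 0) (hG.area E) hd h (pert_refl h) hc (by simp)
    (refl_hyp (hG.smc E) hd hd2 h κ 0) hG'
  refine le_trans (le_of_eq (MeasureTheory.lintegral_congr fun y => ?_)) h1
  rcases eq_or_ne y 0 with rfl | hy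
  · simp
  · rw [Db, ub_zero hc, sd_refl h, h.homog _ (inv_pos.2 (norm_pos_iff.2 hy)), div_eq_inv_mul (ψ y)]

end Crest.Agent.R246
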