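import Crest.Agent.R246.G2.Patch
import Crest.Agent.R246.G2.Boost

/-! Row 246, block G2: the signed distance to the perturbed cone and its nearest points. -/

set_option autoImplicit false
set_option linter.unusedSectionVars false

open Set Module Filter Topology Metric
open scoped RealInnerProductSpace ContDiff Pointwise

noncomputable section

namespace Crest.Agent.R246.G2

variable {E : Type} [NormedAddCommGroup E] [InnerProductSpace ℝ E] [FiniteDimensional ℝ E]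
  {C : Set E} {ψ : E → ℝ} {Φ : E ≃ₜ E} {N : E → E}

/-- signed distance to `Φ '' C` -/
def sd (C : Set E) (ψ : E → ℝ) (Φ : E ≃ₜ E) (w : E) : ℝ :=
  if 0 ≤ ψ (Φ.symm w) then infDist w (Φ '' C) else -infDist w (Φ '' C)

theorem pert_zero (hP : Pert C ψ Φ N) : Φ 0 = 0 := by
  have := hP.homog 2 two_pos 0
  rw [smul_zero, two_smul] at this
  simpa using this

theorem pert_ne (hP : Pert C ψ Φ N) {y : E} (hy : y ≠ 0) : Φ y ≠ 0 := fun h =>
  hy (Φ.injective (h.trans (pert_zero hP).symm))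

theorem pert_symm (hP : Pert C ψ Φ N) {t : ℝ} (ht : 0 < t) (w : E) :
    Φ.symm (t • w) = t • Φ.symm w :=
  Φ.injective (by rw [hP.homog t ht, Φ.apply_symm_apply, Φ.apply_symm_apply])

theorem mem_image_iff (h : SMC C ψ) {w : E} : w ∈ Φ '' C ↔ ψ (Φ.symm w) = 0 := by
  rw [← smc_mem_iff h]
  exact ⟨by rintro ⟨y, hy, rfl⟩; simpa using hy, fun hw => ⟨_, hw, Φ.apply_symm_apply w⟩⟩

theorem abs_sd (w : E) : |sd C ψ Φ w| = infDist w (Φ '' C) := by
  unfold sd
  split_ifs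
  · exact abs_of_nonneg infDist_nonneg
  · rw [abs_neg, abs_of_nonneg infDist_nonneg]

theorem sd_refl (h : SMC C ψ) : sd C ψ (Homeomorph.refl E) = ψ := by
  ext w
  have := h.abs_eq w
  simp only [sd, Homeomorph.refl_symm, Homeomorph.refl_apply, id, image_id', ← this]
  split_ifs with hw
  · exact abs_of_nonneg hw
  · rw [abs_of_neg (not_le.1 hw), neg_neg]

theorem infDist_homog (h : SMC C ψ) (hP : Pert C ψ Φ N) {t : ℝ} (ht : 0 < t) (w : E) :
    infDist (t • w) (Φ '' C) = t * infDist w (Φ '' C) := by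
  have h1 : t • (Φ '' C) = Φ '' C := by
    ext z
    rw [mem_smul_set_iff_inv_smul_mem₀ ht.ne', mem_image_iff h, mem_image_iff h,
      pert_symm hP (inv_pos.2 ht), h.homog _ (inv_pos.2 ht), mul_eq_zero]
    simp [ht.ne']
  conv_lhs => rw [← h1]
  rw [infDist_smul₀ ht.ne', Real.norm_of_nonneg ht.le]

theorem cross_le (h : SMC C ψ) {w w' : E} (hw : 0 ≤ ψ (Φ.symm w)) (hw' : ψ (Φ.symm w') ≤ 0) :
    infDist w (Φ '' C) + infDist w' (Φ '' C) ≤ ‖w - w'‖ := by
  obtain ⟨z, hz, hz0⟩ := (convex_segment w' w).isPreconnected.intermediate_value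
    (left_mem_segment ℝ w' w) (right_mem_segment ℝ w' w)
    (h.cont.comp Φ.symm.continuous).continuousOn (show (0 : ℝ) ∈ Icc _ _ from ⟨hw', hw⟩)
  have hz1 : z ∈ Φ '' C := (mem_image_iff h).2 hz0
  have h1 := dist_add_dist_of_mem_segment hz
  have h2 := infDist_le_dist_of_mem (x := w) hz1
  have h3 := infDist_le_dist_of_mem (x := w') hz1
  rw [← dist_eq_norm, dist_comm w w', ← h1, dist_comm z w]
  linarith

theorem sd_cn (h : SMC C ψ) (hP : Pert C ψ Φ N) [Nontrivial E] {κ : ℝ} (hκ : κ < 1)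
    (hb : ∀ y : E, ‖y‖ = 1 → infDist y (Φ '' C) ≤ κ) : Cn (sd C ψ Φ) κ where
  lip w w' := by
    have h1 : |infDist w (Φ '' C) - infDist w' (Φ '' C)| ≤ ‖w - w'‖ := by
      simpa [Real.dist_eq, dist_eq_norm] using (lipschitz_infDist_pt (Φ '' C)).dist_le_mul w w'
    have h2 := infDist_nonneg (x := w) (s := Φ '' C)
    have h3 := infDist_nonneg (x := w') (s := Φ '' C)
    unfold sd
    split_ifs with hw hw' hw'
    · exact h1
    · rw [sub_neg_eq_add, abs_of_nonneg (add_nonneg h2 h3)]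
      exact cross_le h hw (not_le.1 hw').le
    · rw [← neg_add', abs_neg, abs_of_nonneg (add_nonneg h2 h3), add_comm, norm_sub_rev]
      exact cross_le h hw' (not_le.1 hw).le
    · rwa [neg_sub_neg, abs_sub_comm]
  homog t ht w := by
    unfold sd
    rw [pert_symm hP ht, h.homog t ht, infDist_homog h hP ht]
    simp only [mul_nonneg_iff_of_pos_left ht]
    split_ifs <;> simp
  bound w := by
    rw [abs_sd]
    rcases eq_or_ne w 0 with rfl | hw
    · rw [infDist_zero_of_mem (show (0 : E) ∈ Φ '' C from ⟨0, h.zero_mem, pert_zero hP⟩)]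
      simp
    · have h1 := infDist_homog h hP (norm_pos_iff.2 hw) (‖w‖⁻¹ • w)
      rw [smul_inv_smul₀ (norm_ne_zero_iff.2 hw)] at h1
      rw [h1, mul_comm]
      exact mul_le_mul_of_nonneg_right (hb _ (norm_unit hw)) (norm_nonneg _)
  k0 := by
    obtain ⟨y, hy⟩ := exists_norm_eq E zero_le_one
    exact infDist_nonneg.trans (hb y hy)
  k1 := hκ

theorem pert_diff (hP : Pert C ψ Φ N) {y : E} (hy : y ∈ C) (h0 : y ≠ 0) :
    DifferentiableAt ℝ Φ y ∧ DifferentiableAt ℝ N y ∧ ContinuousAt (fderiv ℝ Φ) y ∧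
      ContinuousAt (fderiv ℝ N) y := by
  obtain ⟨U, hU, hCU, h1, h2⟩ := hP.smooth
  have hy' := hU.mem_nhds (hCU ⟨hy, h0⟩)
  exact ⟨(h1.contDiffAt hy').differentiableAt (by simp), (h2.contDiffAt hy').differentiableAt
    one_ne_zero, (h1.continuousOn_fderiv_of_isOpen hU (by simp)).continuousAt hy',
    (h2.continuousOn_fderiv_of_isOpen hU le_rfl).continuousAt hy'⟩

theorem pert_perp (h : SMC C ψ) (hP : Pert C ψ Φ N) {y : E} (hy : y ∈ C) (h0 : y ≠ 0) :
    ⟪N y, Φ y⟫ = 0 := by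
  rw [← euler hP.homog (pert_diff hP hy h0).1]
  exact hP.orth y hy h0 y (smc_euler h hy h0)

theorem ev_gt_of_deriv {g : ℝ → ℝ} {a : ℝ} (hg : HasDerivAt g a 0) (ha : 0 < a) :
    ∀ᶠ t in 𝓝[>] (0 : ℝ), g 0 < g t := by
  filter_upwards [hg.tendsto_slope_zero_right.eventually (lt_mem_nhds ha), self_mem_nhdsWithin]
    with t ht ht0
  rw [zero_add, smul_eq_mul] at ht
  exact sub_pos.1 ((mul_pos_iff_of_pos_left (inv_pos.2 ht0)).1 ht)

theorem hasDerivAt_dist_sq (w : E) {c : ℝ → E} {c' : E} {t : ℝ} (hc : HasDerivAt c c' t) :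
    HasDerivAt (fun t => ‖w - c t‖ ^ 2) (-2 * ⟪w - c t, c'⟫) t := by
  have := (hc.const_sub w).norm_sq
  simpa [inner_neg_right] using this

/-- nearest point: first and second order conditions -/
theorem near (h : SMC C ψ) (hP : Pert C ψ Φ N) {w : E} (hw : infDist w (Φ '' C) < ‖w‖) :
    ∃ y ∈ C, y ≠ 0 ∧ w = Φ y + sd C ψ Φ w • N y ∧ ∀ v, ⟪gradient ψ y, v⟫ = 0 →
      0 ≤ ⟪fderiv ℝ Φ y v, fderiv ℝ Φ y v + sd C ψ Φ w • fderiv ℝ N y v⟫ := by
  obtain ⟨_, ⟨y, hy, rfl⟩, hd⟩ := (Φ.isClosed_image.2 h.closed).exists_infDist_eq_dist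
    ⟨_, mem_image_of_mem Φ h.zero_mem⟩ w
  have h0 : y ≠ 0 := by
    rintro rfl
    rw [hd, pert_zero hP, dist_zero_right] at hw
    exact lt_irrefl _ hw
  have hmin : ∀ z ∈ C, ‖w - Φ y‖ ^ 2 ≤ ‖w - Φ z‖ ^ 2 := fun z hz => by
    refine pow_le_pow_left₀ (norm_nonneg _) ?_ 2
    rw [← dist_eq_norm, ← dist_eq_norm, ← hd]
    exact infDist_le_dist_of_mem (mem_image_of_mem Φ hz)
  obtain ⟨hΦd, hNd, hΦc, -⟩ := pert_diff hP hy h0
  have hν := smc_norm h hy h0
  have hNN : ⟪N y, N y⟫ = 1 := by rw [real_inner_self_eq_norm_sq, hP.unit y hy h0]; norm_num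
  -- first order
  have h1 : ∀ v, ⟪gradient ψ y, v⟫ = 0 → ⟪w - Φ y, fderiv ℝ Φ y v⟫ = 0 := fun v hv => by
    obtain ⟨c, c', hc0, hc', -, hev⟩ := exists_curve h hy h0 hv
    have h2 : HasDerivAt (fun t => Φ (c t)) (fderiv ℝ Φ y v) 0 :=
      (hc0 ▸ hΦd.hasFDerivAt : HasFDerivAt Φ (fderiv ℝ Φ y) (c 0)).comp_hasDerivAt 0
        (hc' ▸ hev.self_of_nhds.2.2.1)
    have h3 : IsLocalMin (fun t => ‖w - Φ (c t)‖ ^ 2) 0 := by
      filter_upwards [hev] with t ht
      simpa only [hc0] using hmin _ ht.1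
    have h4 := h3.hasDerivAt_eq_zero (hasDerivAt_dist_sq w h2)
    simp only [hc0] at h4
    linarith
  set τ := ⟪N y, w - Φ y⟫ with hτ
  have h2 : w - Φ y = τ • N y := by
    obtain ⟨u, hu⟩ := LinearMap.injective_iff_surjective (f := (fderiv ℝ Φ y : E →ₗ[ℝ] E)).1
      (hP.inj y hy h0) (w - Φ y - τ • N y)
    rw [ContinuousLinearMap.coe_coe] at hu
    have h3 : ⟪N y, w - Φ y - τ • N y⟫ = 0 := by
      rw [inner_sub_right, inner_smul_right, hNN, ← hτ]; ring
    have h4 : u = prj (gradient ψ y) u + ⟪gradient ψ y, u⟫ • gradient ψ y := by simp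
    have h5 : ⟪gradient ψ y, u⟫ = 0 := by
      rw [← hu, h4, map_add, map_smul, inner_add_right, inner_smul_right,
        hP.orth y hy h0 _ (inner_prj hν u), zero_add] at h3
      exact (mul_eq_zero.1 h3).resolve_right (hP.pos y hy h0).ne'
    have h6 : ⟪w - Φ y - τ • N y, fderiv ℝ Φ y u⟫ = 0 := by
      rw [inner_sub_left, inner_smul_left, h1 u h5, hP.orth y hy h0 u h5]; simp
    rw [hu, inner_self_eq_zero] at h6
    exact sub_eq_zero.1 h6
  have h3 : infDist w (Φ '' C) = |τ| := by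
    rw [hd, dist_eq_norm, h2, norm_smul, hP.unit y hy h0, mul_one, Real.norm_eq_abs]
  -- the sign
  have h4 : τ ≠ 0 → 0 < τ * ψ (Φ.symm w) := fun hτ0 => by
    have hl : HasDerivAt (fun t : ℝ => y + t • τ • gradient ψ y) (τ • gradient ψ y) 0 := by
      simpa using ((hasDerivAt_id (0 : ℝ)).smul_const (τ • gradient ψ y)).const_add y
    have hy0 : y + (0 : ℝ) • τ • gradient ψ y = y := by simp
    have ha : HasDerivAt (fun t : ℝ => τ * ψ (y + t • τ • gradient ψ y))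
        (τ * fderiv ℝ ψ y (τ • gradient ψ y)) 0 :=
      (((smc_diffAt h hy h0).hasFDerivAt.comp_hasDerivAt_of_eq 0 hl hy0.symm)).const_mul τ
    have hb := (hasDerivAt_dist_sq w (hΦd.hasFDerivAt.comp_hasDerivAt_of_eq 0 hl hy0.symm)).neg
    have hτ2 : 0 < τ * τ := mul_self_pos.2 hτ0
    have ha' := ev_gt_of_deriv ha (by
      rw [fderiv_eq_inner, inner_smul_right, real_inner_self_eq_norm_sq, hν]; simpa using hτ0)
    have hb' := ev_gt_of_deriv hb (by
      simp only [Function.comp_apply, hy0, h2, map_smul, inner_smul_left, inner_smul_right,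
        conj_trivial]
      nlinarith [mul_pos hτ2 (hP.pos y hy h0)])
    obtain ⟨t, hta, htb⟩ := (ha'.and hb').exists
    simp only [hy0, (smc_mem_iff h).1 hy, mul_zero, Pi.neg_apply, Function.comp_apply,
      neg_lt_neg_iff] at hta htb
    have hz : Φ (y + t • τ • gradient ψ y) ∈ ball w |τ| := by
      rw [mem_ball', dist_eq_norm, ← h3, hd, dist_eq_norm]
      exact lt_of_pow_lt_pow_left₀ 2 (norm_nonneg _) htb
    by_contra hcon
    obtain ⟨p, hp, hp0⟩ := (convex_ball w |τ|).isPreconnected.intermediate_value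
      (mem_ball_self (abs_pos.2 hτ0)) hz (f := fun p => τ * ψ (Φ.symm p))
      (continuous_const.mul (h.cont.comp Φ.symm.continuous)).continuousOn
      (show (0 : ℝ) ∈ Icc _ _ from ⟨not_lt.1 hcon, by simpa using hta.le⟩)
    have hp1 : p ∈ Φ '' C := (mem_image_iff h).2 ((mul_eq_zero.1 hp0).resolve_left hτ0)
    exact absurd (h3 ▸ infDist_le_dist_of_mem (x := w) hp1) (not_le.2 (mem_ball'.1 hp))
  have h5 : sd C ψ Φ w = τ := by
    unfold sd
    rw [h3]
    rcases lt_trichotomy τ 0 with hτ0 | hτ0 | hτ0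
    · rw [if_neg (not_le.2 (neg_of_mul_pos_right (h4 hτ0.ne) hτ0.le)), abs_of_neg hτ0, neg_neg]
    · simp [hτ0]
    · rw [if_pos (pos_of_mul_pos_right (h4 hτ0.ne') hτ0.le).le, abs_of_pos hτ0]
  refine ⟨y, hy, h0, by rw [h5, ← h2, add_sub_cancel], fun v hv => ?_⟩
  rw [h5]
  -- second order
  by_contra hcon
  obtain ⟨c, c', hc0, hc', hcc, hev⟩ := exists_curve h hy h0 hv
  have hcd : HasDerivAt c v 0 := hc' ▸ hev.self_of_nhds.2.2.1
  have hH : HasDerivAt (fun t => w - Φ (c t) - τ • N (c t))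
      (-(fderiv ℝ Φ y v + τ • fderiv ℝ N y v)) 0 := by
    have := ((hΦd.hasFDerivAt.comp_hasDerivAt_of_eq 0 hcd hc0.symm).const_sub w).sub
      ((hNd.hasFDerivAt.comp_hasDerivAt_of_eq 0 hcd hc0.symm).const_smul τ)
    rwa [← neg_add'] at this
  have hk : Tendsto (fun t => fderiv ℝ Φ (c t) (c' t)) (𝓝[>] 0) (𝓝 (fderiv ℝ Φ y v)) := by
    have := ((hΦc.comp_of_eq hcd.continuousAt hc0).clm_apply hcc).tendsto
    simp only [Function.comp_apply, hc0, hc'] at this
    exact this.mono_left nhdsWithin_le_nhds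
  have hpos := (hH.tendsto_slope_zero_right.inner (𝕜 := ℝ) hk).eventually (lt_mem_nhds
    (show (0 : ℝ) < _ by rw [inner_neg_left, real_inner_comm]; exact neg_pos.2 (not_le.1 hcon)))
  obtain ⟨ε, hε, hεs⟩ := mem_nhdsGT_iff_exists_Ioo_subset.1 hpos
  obtain ⟨δ, hδ, hδs⟩ := Metric.eventually_nhds_iff.1 hev
  set a := min ε δ / 2 with ha
  have hε0 : 0 < ε := hε
  have ha0 : 0 < a := half_pos (lt_min hε0 hδ)
  have haε : a < ε := (half_lt_self (lt_min hε0 hδ)).trans_le (min_le_left _ _)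
  have haδ : a < δ := (half_lt_self (lt_min hε0 hδ)).trans_le (min_le_right _ _)
  have hin : ∀ t ∈ Icc 0 a, dist t 0 < δ := fun t ht => by
    rw [dist_zero_right, Real.norm_of_nonneg ht.1]; exact ht.2.trans_lt haδ
  have hg : ∀ t ∈ Icc 0 a, HasDerivAt (fun t => ‖w - Φ (c t)‖ ^ 2)
      (-2 * ⟪w - Φ (c t), fderiv ℝ Φ (c t) (c' t)⟫) t := fun t ht =>
    hasDerivAt_dist_sq w ((pert_diff hP (hδs (hin t ht)).1
      (hδs (hin t ht)).2.1).1.hasFDerivAt.comp_hasDerivAt t (hδs (hin t ht)).2.2.1)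
  obtain ⟨t, ht, hts⟩ := exists_hasDerivAt_eq_slope _ _ ha0
    (fun t ht => (hg t ht).continuousAt.continuousWithinAt) fun t ht => hg t (Ioo_subset_Icc_self ht)
  have hq := hδs (hin t (Ioo_subset_Icc_self ht))
  have h6 : 0 < ⟪w - Φ (c t), fderiv ℝ Φ (c t) (c' t)⟫ := by
    have := hεs ⟨ht.1, ht.2.trans haε⟩
    simp only [mem_ofPred_eq, zero_add, hc0, h2, sub_self, sub_zero, inner_smul_left, conj_trivial,
      inner_sub_left _ (τ • N (c t)), hP.orth _ hq.1 hq.2.1 _ hq.2.2.2, mul_zero] at this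
    exact (mul_pos_iff_of_pos_left (inv_pos.2 ht.1)).1 this
  have h7 := hmin _ (hδs (hin a ⟨ha0.le, le_rfl⟩)).1
  rw [hc0, sub_zero, eq_div_iff ha0.ne'] at hts
  nlinarith [mul_pos h6 ha0]

end Crest.Agent.R246.G2
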