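import Crest.Agent.R246.G2.Lin

/-! Row 246, block G2: graph patches of a smooth cone, curves, tangential derivatives. -/

set_option autoImplicit false
set_option linter.unusedSectionVars false

open Set Module Filter Topology Metric
open scoped RealInnerProductSpace ContDiff

noncomputable section

namespace Crest.Agent.R246.G2

variable {E : Type} [NormedAddCommGroup E] [InnerProductSpace ℝ E] [FiniteDimensional ℝ E]
  {C : Set E} {ψ : E → ℝ}

theorem fderiv_eq_inner (f : E → ℝ) (y v : E) : fderiv ℝ f y v = ⟪gradient f y, v⟫ := by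
  simp [gradient]

theorem smc_mem_iff (h : SMC C ψ) {y : E} : y ∈ C ↔ ψ y = 0 := by
  rw [h.closed.mem_iff_infDist_zero ⟨0, h.zero_mem⟩, ← h.abs_eq, abs_eq_zero]

theorem smc_contDiffAt (h : SMC C ψ) {y : E} (hy : y ∈ C) (h0 : y ≠ 0) : ContDiffAt ℝ ∞ ψ y := by
  obtain ⟨U, hU, hCU, hs, -⟩ := h.smooth
  exact hs.contDiffAt (hU.mem_nhds (hCU ⟨hy, h0⟩))

theorem smc_diffAt (h : SMC C ψ) {y : E} (hy : y ∈ C) (h0 : y ≠ 0) : DifferentiableAt ℝ ψ y :=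
  (smc_contDiffAt h hy h0).differentiableAt (by simp)

theorem smc_norm (h : SMC C ψ) {y : E} (hy : y ∈ C) (h0 : y ≠ 0) : ‖gradient ψ y‖ = 1 := by
  obtain ⟨U, -, hCU, -, hn⟩ := h.smooth
  exact hn y (hCU ⟨hy, h0⟩)

theorem measurableSet_diff (h : SMC C ψ) [MeasurableSpace E] [BorelSpace E] :
    MeasurableSet (C \ {0}) := h.closed.measurableSet.diff (measurableSet_singleton 0)

/-- Euler's identity for `1`-homogeneous maps -/
theorem euler {F : Type} [NormedAddCommGroup F] [NormedSpace ℝ F] {f : E → F}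
    (hf : ∀ t : ℝ, 0 < t → ∀ y, f (t • y) = t • f y) {y : E} (hd : DifferentiableAt ℝ f y) :
    fderiv ℝ f y y = f y := by
  have h1 : HasDerivAt (fun t : ℝ => f (t • y)) (fderiv ℝ f y y) 1 := by
    have h2 : HasDerivAt (fun t : ℝ => t • y) y 1 := by simpa using (hasDerivAt_id (1 : ℝ)).smul_const y
    have h3 : HasFDerivAt f (fderiv ℝ f y) ((fun t : ℝ => t • y) 1) := by simpa using hd.hasFDerivAt
    exact h3.comp_hasDerivAt (1 : ℝ) h2
  have h4 : HasDerivAt (fun t : ℝ => f (t • y)) (f y) 1 := by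
    have h2 : HasDerivAt (fun t : ℝ => t • f y) (f y) 1 := by
      simpa using (hasDerivAt_id (1 : ℝ)).smul_const (f y)
    refine h2.congr_of_eventuallyEq ?_
    filter_upwards [lt_mem_nhds (zero_lt_one' ℝ)] with t ht using hf t ht y
  exact h1.unique h4

theorem smc_euler (h : SMC C ψ) {y : E} (hy : y ∈ C) (h0 : y ≠ 0) : ⟪gradient ψ y, y⟫ = 0 := by
  rw [← fderiv_eq_inner, euler (fun t ht y => h.homog t ht y) (smc_diffAt h hy h0)]
  exact (smc_mem_iff h).1 hy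

/-- graph patch -/
theorem exists_patch (h : SMC C ψ) {y₀ : E} (hy : y₀ ∈ C) (h0 : y₀ ≠ 0) :
    ∃ (G : (ℝ ∙ gradient ψ y₀)ᗮ → E) (O : Set (ℝ ∙ gradient ψ y₀)ᗮ) (W : Set E),
      IsOpen O ∧ IsOpen W ∧ y₀ ∈ W ∧ (0 : E) ∉ W ∧ ContDiffOn ℝ 1 G O ∧ InjOn G O ∧
      (∀ x ∈ O, Function.Injective (fderiv ℝ G x)) ∧ G '' O = C ∩ W ∧
      (∀ x ∈ O, ∀ v, ⟪gradient ψ (G x), fderiv ℝ G x v⟫ = 0) ∧
      ∃ x₀ ∈ O, G x₀ = y₀ ∧ ∀ v, fderiv ℝ G x₀ v = v := by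
  set e := gradient ψ y₀ with he
  have hen : ‖e‖ = 1 := smc_norm h hy h0
  obtain ⟨U, hU, hCU, hs, -⟩ := h.smooth
  have hyU : y₀ ∈ U := hCU ⟨hy, h0⟩
  let Ψ : E → E := fun y => y + (ψ y - ⟪e, y⟫) • e
  have hΨs : ∀ y ∈ U, ContDiffAt ℝ 1 Ψ y := fun y hy =>
    contDiffAt_id.add ((((hs.contDiffAt (hU.mem_nhds hy)).of_le (by simp)).sub
      (contDiffAt_const.inner ℝ contDiffAt_id)).smul contDiffAt_const)
  have hΨd : HasFDerivAt Ψ (ContinuousLinearEquiv.refl ℝ E : E →L[ℝ] E) y₀ := by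
    have h1 : HasFDerivAt (fun y => ψ y - ⟪e, y⟫) (0 : E →L[ℝ] ℝ) y₀ := by
      refine ((smc_diffAt h hy h0).hasFDerivAt.sub (innerSL ℝ e).hasFDerivAt).congr_fderiv ?_
      ext v
      simp [he]
    refine ((hasFDerivAt_id y₀).add (h1.smul_const e)).congr_fderiv ?_
    ext v
    simp
  have hin : ∀ y, ⟪e, Ψ y⟫ = ψ y := fun y => by
    simp only [Ψ, inner_add_right, inner_smul_right, real_inner_self_eq_norm_sq, hen]
    ring
  let P := (hΨs y₀ hyU).toOpenPartialHomeomorph Ψ hΨd one_ne_zero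
  have hP : ∀ y, P y = Ψ y := fun _ => rfl
  have hys : y₀ ∈ P.source := (hΨs y₀ hyU).mem_toOpenPartialHomeomorph_source hΨd one_ne_zero
  have hinv : ContDiffAt ℝ 1 P.symm (Ψ y₀) := (hΨs y₀ hyU).to_localInverse hΨd one_ne_zero
  obtain ⟨V, hV, hVs⟩ := hinv.contDiffOn le_rfl (by simp)
  obtain ⟨V', hV'V, hV'o, hyV'⟩ := _root_.mem_nhds_iff.1 hV
  let W : Set E := P.source ∩ P ⁻¹' V' ∩ (U ∩ {0}ᶜ)
  have hWo : IsOpen W := (P.isOpen_inter_preimage hV'o).inter (hU.inter isOpen_compl_singleton)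
  let T : Set E := P.target ∩ P.symm ⁻¹' (U ∩ {0}ᶜ) ∩ V'
  have hTo : IsOpen T := (P.isOpen_inter_preimage_symm (hU.inter isOpen_compl_singleton)).inter hV'o
  let G : (ℝ ∙ e)ᗮ → E := fun x => P.symm x
  let O : Set (ℝ ∙ e)ᗮ := Subtype.val ⁻¹' T
  have hOo : IsOpen O := hTo.preimage continuous_subtype_val
  have hGs : ContDiffOn ℝ 1 G O :=
    (hVs.mono hV'V).comp (ℝ ∙ e)ᗮ.subtypeL.contDiff.contDiffOn fun x hx => hx.2
  have hGd : ∀ x ∈ O, DifferentiableAt ℝ G x := fun x hx =>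
    (hGs.contDiffAt (hOo.mem_nhds hx)).differentiableAt one_ne_zero
  have hPG : ∀ x ∈ O, Ψ (G x) = x := fun x hx => P.right_inv hx.1.1
  have hGC : ∀ x ∈ O, ψ (G x) = 0 := fun x hx => by rw [← hin, hPG x hx, inner_coe_perp]
  have hch : ∀ x ∈ O, ∀ v, fderiv ℝ Ψ (G x) (fderiv ℝ G x v) = v := fun x hx v => by
    have h1 := ((hΨs _ hx.1.2.1).differentiableAt one_ne_zero).hasFDerivAt.comp x
      (hGd x hx).hasFDerivAt
    have h2 : HasFDerivAt (Ψ ∘ G) (ℝ ∙ e)ᗮ.subtypeL x := by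
      refine (ℝ ∙ e)ᗮ.subtypeL.hasFDerivAt.congr_of_eventuallyEq ?_
      filter_upwards [hOo.mem_nhds hx] with x' hx' using hPG x' hx'
    exact congrArg (fun A => A v) (h1.unique h2)
  refine ⟨G, O, W, hOo, hWo, ⟨⟨hys, hyV'⟩, hyU, h0⟩, fun h => h.2.2 rfl, hGs, ?_, ?_, ?_, ?_, ?_⟩
  · intro x hx x' hx' hxx
    exact Subtype.ext (by rw [← hPG x hx, ← hPG x' hx', hxx])
  · intro x hx v v' hv
    exact Subtype.ext (by rw [← hch x hx v, ← hch x hx v', hv])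
  · ext y
    constructor
    · rintro ⟨x, hx, rfl⟩
      refine ⟨(smc_mem_iff h).2 (hGC x hx), ⟨P.map_target hx.1.1, ?_⟩, hx.1.2⟩
      change Ψ (G x) ∈ V'
      rw [hPG x hx]
      exact hx.2
    · rintro ⟨hyC, ⟨hys', hyV⟩, hyU'⟩
      have hmem : Ψ y ∈ (ℝ ∙ e)ᗮ := Submodule.mem_orthogonal_singleton_iff_inner_right.2
        (by rw [hin]; exact (smc_mem_iff h).1 hyC)
      have hl : P.symm (Ψ y) = y := P.left_inv hys'
      refine ⟨⟨Ψ y, hmem⟩, ⟨⟨P.map_source hys', ?_⟩, hyV⟩, hl⟩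
      change P.symm (Ψ y) ∈ U ∩ {0}ᶜ
      rw [hl]
      exact hyU'
  · intro x hx v
    have hd : DifferentiableAt ℝ ψ (G x) :=
      (hs.contDiffAt (hU.mem_nhds hx.1.2.1)).differentiableAt (by simp)
    have h1 := hd.hasFDerivAt.comp x (hGd x hx).hasFDerivAt
    have h2 : HasFDerivAt (ψ ∘ G) (0 : (ℝ ∙ e)ᗮ →L[ℝ] ℝ) x := by
      refine (hasFDerivAt_const (0 : ℝ) x).congr_of_eventuallyEq ?_
      filter_upwards [hOo.mem_nhds hx] with x' hx' using hGC x' hx'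
    rw [← fderiv_eq_inner]
    exact congrArg (fun A => A v) (h1.unique h2)
  · have hmem : Ψ y₀ ∈ (ℝ ∙ e)ᗮ := Submodule.mem_orthogonal_singleton_iff_inner_right.2
      (by rw [hin]; exact (smc_mem_iff h).1 hy)
    have hl : P.symm (Ψ y₀) = y₀ := P.left_inv hys
    have hx : (⟨Ψ y₀, hmem⟩ : (ℝ ∙ e)ᗮ) ∈ O := by
      refine ⟨⟨P.map_source hys, ?_⟩, hyV'⟩
      change P.symm (Ψ y₀) ∈ U ∩ {0}ᶜ
      rw [hl]
      exact ⟨hyU, h0⟩
    refine ⟨_, hx, hl, fun v => ?_⟩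
    have := hch _ hx v
    rwa [show G ⟨Ψ y₀, hmem⟩ = y₀ from hl, hΨd.fderiv] at this

/-- a `C¹` curve in the cone with prescribed tangent -/
theorem exists_curve (h : SMC C ψ) {y : E} (hy : y ∈ C) (h0 : y ≠ 0) {v : E}
    (hv : ⟪gradient ψ y, v⟫ = 0) :
    ∃ c c' : ℝ → E, c 0 = y ∧ c' 0 = v ∧ ContinuousAt c' 0 ∧
      ∀ᶠ t in 𝓝 (0 : ℝ), c t ∈ C ∧ c t ≠ 0 ∧ HasDerivAt c (c' t) t ∧
        ⟪gradient ψ (c t), c' t⟫ = 0 := by
  obtain ⟨G, O, W, hO, -, -, hW0, hG, -, -, him, hT, x₀, hx₀, hGx, hD⟩ := exists_patch h hy h0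
  let v' : (ℝ ∙ gradient ψ y)ᗮ := ⟨v, Submodule.mem_orthogonal_singleton_iff_inner_right.2 hv⟩
  have hl : Continuous fun t : ℝ => x₀ + t • v' := by fun_prop
  have hl0 : Tendsto (fun t : ℝ => x₀ + t • v') (𝓝 0) (𝓝 x₀) := by simpa using hl.tendsto 0
  refine ⟨fun t => G (x₀ + t • v'), fun t => fderiv ℝ G (x₀ + t • v') v', by simpa using hGx,
    by simpa using hD v', ?_, ?_⟩
  · have h1 : ContinuousAt (fderiv ℝ G) x₀ :=
      (hG.continuousOn_fderiv_of_isOpen hO le_rfl).continuousAt (hO.mem_nhds hx₀)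
    have h2 : ContinuousAt (fun t : ℝ => fderiv ℝ G (x₀ + t • v')) 0 :=
      ContinuousAt.comp_of_eq h1 hl.continuousAt (by simp)
    exact h2.clm_apply continuousAt_const
  · filter_upwards [hl0.eventually (hO.mem_nhds hx₀)] with t ht
    have hm : G (x₀ + t • v') ∈ C ∩ W := him ▸ mem_image_of_mem G ht
    refine ⟨hm.1, fun h => hW0 (h ▸ hm.2), ?_, hT _ ht _⟩
    have h1 : HasDerivAt (fun t : ℝ => x₀ + t • v') v' t := by
      simpa using ((hasDerivAt_id t).smul_const v').const_add x₀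
    exact ((hG.contDiffAt (hO.mem_nhds ht)).differentiableAt
      one_ne_zero).hasFDerivAt.comp_hasDerivAt t h1

/-- a function which is constant on the cone has no tangential derivative -/
theorem tan_zero (h : SMC C ψ) {y : E} (hy : y ∈ C) (h0 : y ≠ 0) {v : E}
    (hv : ⟪gradient ψ y, v⟫ = 0) {F : Type} [NormedAddCommGroup F] [NormedSpace ℝ F] {g : E → F}
    {g' : E →L[ℝ] F} (hg : HasFDerivAt g g' y) {a : F} (ha : ∀ z ∈ C, z ≠ 0 → g z = a) :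
    g' v = 0 := by
  obtain ⟨c, c', hc0, hc', -, hev⟩ := exists_curve h hy h0 hv
  have h1 : HasDerivAt c v 0 := hc' ▸ hev.self_of_nhds.2.2.1
  have h2 : HasDerivAt (g ∘ c) (g' v) 0 := (hc0 ▸ hg : HasFDerivAt g g' (c 0)).comp_hasDerivAt 0 h1
  have h3 : HasDerivAt (g ∘ c) 0 0 := by
    refine (hasDerivAt_const (0 : ℝ) a).congr_of_eventuallyEq ?_
    filter_upwards [hev] with t ht using ha _ ht.1 ht.2.1
  exact h2.unique h3

end Crest.Agent.R246.G2
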