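import Crest.Agent.R246.G2.Core

/-! Row 246, block G2: the unperturbed cone. -/

set_option autoImplicit false
set_option linter.unusedSectionVars false

open Set Module Filter Topology Metric MeasureTheory
open scoped RealInnerProductSpace ContDiff Real ENNReal

noncomputable section

namespace Crest.Agent.R246.G2

variable {E : Type} [NormedAddCommGroup E] [InnerProductSpace ℝ E] [FiniteDimensional ℝ E]
  [MeasurableSpace E] [BorelSpace E] {C : Set E} {ψ : E → ℝ}

theorem grad_hom (h : SMC C ψ) : Hom0 (gradient ψ) := fun t ht y => by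
  have h1 := fderiv_comp_smul (𝕜 := ℝ) (f := ψ) (x := y) t
  have h2 : (fun y => ψ (t • y)) = t • ψ := funext fun y => h.homog t ht y
  rw [h2, fderiv_const_smul_field] at h1
  unfold gradient
  rw [smul_right_injective _ ht.ne' h1.symm]

theorem pert_refl (h : SMC C ψ) : Pert C ψ (Homeomorph.refl E) (gradient ψ) where
  homog _ _ _ := rfl
  hom0 := grad_hom h
  smooth := by
    obtain ⟨U, hU, hCU, hs, -⟩ := h.smooth
    exact ⟨U, hU, hCU, contDiffOn_id, (InnerProductSpace.toDual ℝ E).symm.contDiff.comp_contDiffOn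
      (hs.fderiv_of_isOpen (m := 1) hU (by norm_cast))⟩
  unit _ hy h0 := smc_norm h hy h0
  orth y _ _ v hv := by simpa using hv
  inj y _ _ := by simpa using Function.injective_id
  pos y hy h0 := by simp [smc_norm h hy h0]

theorem inner_hess (f : E → ℝ) (y u v : E) : ⟪hess f y u, v⟫ = fderiv ℝ (fderiv ℝ f) y u v := by
  have := (InnerProductSpace.toDual ℝ E).symm.comp_fderiv (f := fderiv ℝ f) (x := y)
  have h2 : hess f y u = (InnerProductSpace.toDual ℝ E).symm (fderiv ℝ (fderiv ℝ f) y u) :=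
    congrArg (fun A => A u) this
  rw [h2]
  simp

theorem hess_symm {f : E → ℝ} {y : E} (hf : ContDiffAt ℝ ∞ f y) (u v : E) :
    ⟪hess f y u, v⟫ = ⟪u, hess f y v⟫ := by
  rw [real_inner_comm (hess f y v) u, inner_hess, inner_hess]
  exact (hf.isSymmSndFDerivAt (by simp; norm_cast)).eq u v

theorem inner_grad_hess (h : SMC C ψ) {y : E} (hy : y ∈ C) (h0 : y ≠ 0) (v : E) :
    ⟪gradient ψ y, hess ψ y v⟫ = 0 := by
  obtain ⟨U, hU, hCU, -, hn⟩ := h.smooth
  have h1 := ((grad_contDiffAt h hy h0).differentiableAt one_ne_zero).hasFDerivAt.norm_sq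
  have h2 : HasFDerivAt (fun y => ‖gradient ψ y‖ ^ 2) (0 : E →L[ℝ] ℝ) y := by
    refine (hasFDerivAt_const (1 : ℝ) y).congr_of_eventuallyEq ?_
    filter_upwards [hU.mem_nhds (hCU ⟨hy, h0⟩)] with z hz
    simp [hn z hz]
  simpa [hess] using congrArg (fun A => A v) (h1.unique h2)

theorem hess_grad (h : SMC C ψ) {y : E} (hy : y ∈ C) (h0 : y ≠ 0) :
    hess ψ y (gradient ψ y) = 0 :=
  ext_inner_right ℝ fun v => by
    rw [hess_symm (smc_contDiffAt h hy h0), inner_grad_hess h hy h0, inner_zero_left]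

theorem Jac_le_one {d : ℕ} (hd : finrank ℝ E = d + 1) (hd1 : 1 ≤ d) (h : SMC C ψ) {y : E}
    (hy : y ∈ C) (h0 : y ≠ 0) {p q : ℝ} (hp : 0 < p) (hp1 : p ≤ 1)
    (hpsd : ∀ v, ⟪gradient ψ y, v⟫ = 0 → 0 ≤ ⟪fderiv ℝ (Homeomorph.refl E) y v,
      Lop (Homeomorph.refl E) (gradient ψ) p q y v⟫) :
    Jac ψ (Homeomorph.refl E) (gradient ψ) p q y ≤ 1 := by
  have hν := smc_norm h hy h0
  have hνν : ⟪gradient ψ y, gradient ψ y⟫ = 1 := by rw [real_inner_self_eq_norm_sq, hν]; norm_num
  set L := Lop (Homeomorph.refl E) (gradient ψ) p q y with hL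
  have hL' : L = p • ContinuousLinearMap.id ℝ E + (q * ‖y‖) • hess ψ y := by simp [hL, Lop, hess]
  have hLa : ∀ v, L v = p • v + (q * ‖y‖) • hess ψ y v := fun v => by simp [hL']
  have hLν : L (gradient ψ y) = p • gradient ψ y := by simp [hLa, hess_grad h hy h0]
  have hsplit : ∀ v, L v = L (prj (gradient ψ y) v) + (p * ⟪gradient ψ y, v⟫) • gradient ψ y :=
    fun v => by
      rw [prj_apply, map_sub, map_smul, hLν]
      module
  have hsym : ∀ u v, ⟪L u, v⟫ = ⟪u, L v⟫ := fun u v => by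
    simp only [hLa, inner_add_left, inner_add_right, inner_smul_left, inner_smul_right,
      hess_symm (smc_contDiffAt h hy h0), conj_trivial]
  have hpos : ∀ v, 0 ≤ ⟪v, L v⟫ := fun v => by
    have h1 := hpsd _ (inner_prj hν v)
    have h2 : ⟪gradient ψ y, L (prj (gradient ψ y) v)⟫ = 0 := by
      rw [← hsym, hLν, inner_smul_left, inner_prj hν, mul_zero]
    have h3 : ⟪v, L (prj (gradient ψ y) v)⟫ = ⟪prj (gradient ψ y) v, L (prj (gradient ψ y) v)⟫ := by
      conv_rhs => rw [prj_apply, inner_sub_left, inner_smul_left, ← prj_apply, h2]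
      simp
    simp only [Homeomorph.refl_apply, fderiv_id, ContinuousLinearMap.id_apply] at h1
    rw [hsplit, inner_add_right, h3, inner_smul_right, real_inner_comm (gradient ψ y) v, mul_assoc]
    exact add_nonneg h1 (mul_nonneg hp.le (mul_self_nonneg _))
  have htr : trc L / finrank ℝ E = p := by
    have h1 := h.minimal y hy h0
    have h2 : (finrank ℝ E : ℝ) ≠ 0 := by rw [hd]; positivity
    simp only [lap, trc] at h1
    simp only [trc, hL', ContinuousLinearMap.toLinearMap_add, ContinuousLinearMap.toLinearMap_smul,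
      map_add, map_smul, h1, ContinuousLinearMap.coe_id, LinearMap.trace_id, smul_eq_mul]
    field_simp
    ring
  obtain ⟨h1, h2⟩ := det_le_trc_pow hsym hpos
  rw [htr, hd] at h2
  have hfac : L = (L ∘L prj (gradient ψ y) + rk (gradient ψ y) (gradient ψ y)) ∘L
      (ContinuousLinearMap.id ℝ E + rk ((p - 1) • gradient ψ y) (gradient ψ y)) := by
    ext v
    rw [hsplit]
    simp only [ContinuousLinearMap.comp_apply, add_apply, ContinuousLinearMap.id_apply, rk_apply,
      prj_apply, hνν, map_sub, map_add, map_smul, hLν]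
    module
  have h3 := congrArg ContinuousLinearMap.det hfac
  rw [det_comp, det_id_add_rk, inner_smul_right, hνν, mul_one, add_sub_cancel] at h3
  rw [Jac, ← hL, div_le_one hp]
  rw [h3] at h1 h2
  rw [abs_of_nonneg (nonneg_of_mul_nonneg_left h1 hp)]
  exact (le_of_mul_le_mul_right (h2.trans_eq (pow_succ p d)) hp).trans
    (pow_le_of_le_one hp.le hp1 (by omega))

theorem lintegral_gk {d : ℕ} (hS : StSMC E) (hd : finrank ℝ E = d + 1) (hd2 : 2 ≤ d)
    (h : SMC C ψ) : ∫⁻ y, ENNReal.ofReal (gk d 0 1 y) ∂ar d C = ENNReal.ofReal (Th d C) := by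
  obtain ⟨h1, -, h2, -⟩ := hS d hd hd2 C ψ h
  have h3 := h1.integ 0 1 one_pos
  rw [h2] at h3
  exact (ofReal_integral_eq_lintegral_ofReal h3 (Eventually.of_forall (gk_nonneg d))).symm

theorem refl_hyp {d : ℕ} (hS : StSMC E) (hd : finrank ℝ E = d + 1) (hd2 : 2 ≤ d) (h : SMC C ψ)
    (κ : ℝ) (b : E) : ∀ s ∈ Ioo (-(π / 2)) (π / 2), ∃ M : E → ℝ≥0∞,
      (∀ y ∈ C, y ≠ 0 →
        (∀ v, ⟪gradient ψ y, v⟫ = 0 → 0 ≤ ⟪fderiv ℝ (Homeomorph.refl E) y v,
          Lop (Homeomorph.refl E) (gradient ψ) (Real.cos s)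
            (qf b s (‖Homeomorph.refl E y‖⁻¹ • Homeomorph.refl E y) (gradient ψ y)) y v⟫) →
        |qf b s (‖Homeomorph.refl E y‖⁻¹ • Homeomorph.refl E y) (gradient ψ y)| * √(1 - κ ^ 2)
          ≤ κ * Real.cos s →
        ENNReal.ofReal (Jac ψ (Homeomorph.refl E) (gradient ψ) (Real.cos s)
          (qf b s (‖Homeomorph.refl E y‖⁻¹ • Homeomorph.refl E y) (gradient ψ y)) y) ≤ M y) ∧
      ∫⁻ y, ENNReal.ofReal (gk d 0 1 (Homeomorph.refl E y)) * M y ∂ar d C
        ≤ ENNReal.ofReal (Th d C) := fun s hs =>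
  ⟨fun _ => 1, fun y hy h0 h1 _ => ENNReal.ofReal_le_one.2 (Jac_le_one hd (by omega) h hy h0
    (Real.cos_pos_of_mem_Ioo hs) (Real.cos_le_one s) h1),
    by simpa using (lintegral_gk hS hd hd2 h).le⟩

end Crest.Agent.R246.G2
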